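import Mathlib

open MeasureTheory Filter Topology

namespace Vale.Agent.P143

variable {V : Type*}

/-- The set of edges of `G` that are present in the configuration `ω ∈ {0,1}^{E(G)}`. -/
def openEdges {G : SimpleGraph V} (ω : G.edgeSet → Bool) : Set (Sym2 V) :=
  {e | ∃ h : e ∈ G.edgeSet, ω ⟨e, h⟩ = true}

/-- `T` is the edge set of a spanning tree of the subgraph `H`: it consists of edges of `H`,
contains no cycle and connects any two vertices of `H`. -/
def IsSpanningTreeOf {G : SimpleGraph V} (H : G.Subgraph) (T : Set (Sym2 V)) : Prop :=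
  T ⊆ H.edgeSet ∧ (SimpleGraph.fromEdgeSet T).IsAcyclic ∧
    ∀ u ∈ H.verts, ∀ v ∈ H.verts, (SimpleGraph.fromEdgeSet T).Reachable u v

/-- The uniform spanning tree of the subgraph `H`, as a measure on `{0,1}^{E(G)}`. -/
noncomputable def ust {G : SimpleGraph V} (H : G.Subgraph) : Measure (G.edgeSet → Bool) :=
  ProbabilityTheory.uniformOn {ω | IsSpanningTreeOf H (openEdges ω)}

/-- An increasing sequence of finite connected subgraphs with union `G`. -/
def IsExhaustion {G : SimpleGraph V} (H : ℕ → G.Subgraph) : Prop :=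
  Monotone H ∧ (∀ n, (H n).verts.Finite) ∧ (∀ n, (H n).Connected) ∧ ⨆ n, H n = ⊤

/-- `μ` is the free uniform spanning forest measure of `G`: a probability measure on
`{0,1}^{E(G)}` that is the weak limit of the uniform spanning trees along every exhaustion of `G`
(and exhaustions exist). -/
def IsFUSF (G : SimpleGraph V) (μ : Measure (G.edgeSet → Bool)) : Prop :=
  IsProbabilityMeasure μ ∧ (∃ H : ℕ → G.Subgraph, IsExhaustion H) ∧
    ∀ H : ℕ → G.Subgraph, IsExhaustion H →
      ∀ f : BoundedContinuousFunction (G.edgeSet → Bool) ℝ,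
        Tendsto (fun n => ∫ ω, f ω ∂(ust (H n))) atTop (𝓝 (∫ ω, f ω ∂μ))

/-- The law of a family of i.i.d. uniform `[0,1]` labels of the vertices. -/
noncomputable def iidUniform (V : Type*) : Measure (V → unitInterval) :=
  Measure.infinitePi fun _ => volume

end Vale.Agent.P143
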