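import Vale.Agent.P143.OneDim
import Vale.Agent.P143.Defs

/-!
I.i.d. Laplace labels of the edges as an equivariant function of i.i.d. labels of the vertices.
-/

open scoped ENNReal
open MeasureTheory Set Filter Topology

namespace Vale.Agent.P143

variable {V : Type*}

noncomputable def rank (G : SimpleGraph V) (R : V → ℝ) (a b : V) : ℕ :=
  Set.ncard {w | G.Adj a w ∧ R w < R b}

noncomputable def noise (G : SimpleGraph V) (R : V → ℝ) (Y : V × ℕ → ℝ) : Sym2 V → ℝ :=
  Sym2.lift ⟨fun a b => (if R b < R a then Y (a, rank G R a b) else 0) +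
    (if R a < R b then Y (b, rank G R b a) else 0), fun _ _ => add_comm _ _⟩

lemma noise_mk (G : SimpleGraph V) (R : V → ℝ) (Y : V × ℕ → ℝ) (a b : V) :
    noise G R Y s(a, b) = (if R b < R a then Y (a, rank G R a b) else 0) +
      (if R a < R b then Y (b, rank G R b a) else 0) := rfl

lemma rank_lt {G : SimpleGraph V} (hG : ∀ v, (G.neighborSet v).Finite) {R : V → ℝ} {a b c : V}
    (hb : G.Adj a b) (h : R b < R c) : rank G R a b < rank G R a c := by
  refine Set.ncard_lt_ncard ⟨fun w hw => ⟨hw.1, hw.2.trans h⟩, fun hs => ?_⟩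
    ((hG a).subset fun w hw => hw.1)
  exact lt_irrefl _ (hs (show b ∈ {w | G.Adj a w ∧ R w < R c} from ⟨hb, h⟩)).2

lemma exists_sel {G : SimpleGraph V} (hG : ∀ v, (G.neighborSet v).Finite) {R : V → ℝ}
    (hR : Function.Injective R) {F : Finset (Sym2 V)} (hF : ∀ f ∈ F, f ∈ G.edgeSet) :
    ∃ sel : F → V × ℕ, Function.Injective sel ∧ ∀ Y, F.restrict (noise G R Y) =
      fun f => Y (sel f) := by
  have h1 : ∀ f : F, ∃ a b, f.1 = s(a, b) ∧ G.Adj a b ∧ R b < R a := by
    rintro ⟨f, hf⟩
    induction f using Sym2.ind with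
    | h a b =>
      have hab : G.Adj a b := hF _ hf
      rcases lt_or_gt_of_ne (hR.ne hab.ne) with h | h
      · exact ⟨b, a, Sym2.eq_swap, hab.symm, h⟩
      · exact ⟨a, b, rfl, hab, h⟩
  choose a b hab hadj hlt using h1
  refine ⟨fun f => (a f, rank G R (a f) (b f)), fun f g hfg => ?_, fun Y => ?_⟩
  · simp only [Prod.mk.injEq] at hfg
    obtain ⟨h1, h2⟩ := hfg
    have h3 : b f = b g := by
      by_contra hne
      rcases lt_or_gt_of_ne (hR.ne hne) with h | h
      · have := rank_lt hG (hadj f) h
        rw [← h1] at h2; omega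
      · have := rank_lt hG (hadj g) h
        rw [h1] at h2; omega
    exact Subtype.ext (by rw [hab f, hab g, h1, h3])
  · funext f
    simp only [Finset.restrict]
    rw [hab f, noise_mk, if_pos (hlt f), if_neg (hlt f).not_gt, add_zero]

lemma measurable_noise [Countable V] {X : Type*} [MeasurableSpace X] {G : X → SimpleGraph V}
    (hG : Measurable G) {R : X → V → ℝ} (hR : Measurable R) {Y : X → V × ℕ → ℝ}
    (hY : Measurable Y) : Measurable fun x => noise (G x) (R x) (Y x) := by
  have hr : ∀ a b, Measurable fun x => rank (G x) (R x) a b := fun a b => by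
    refine measurable_ncard.comp (measurable_set_iff.2 fun w => ?_)
    refine Measurable.and (SimpleGraph.measurable_iff_adj.1 hG a w) ?_
    exact measurableSet_setOfPred.1 (measurableSet_lt (by fun_prop) (by fun_prop))
  have hy : ∀ a b, Measurable fun x => Y x (a, rank (G x) (R x) a b) := fun a b => by
    have h1 : Measurable fun p : X × ℕ => Y p.1 (a, p.2) :=
      measurable_from_prod_countable_left fun n => (measurable_pi_apply (a, n)).comp hY
    exact h1.comp (measurable_id.prodMk (hr a b))
  refine measurable_pi_lambda _ fun e => ?_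
  induction e using Sym2.ind with
  | h a b =>
    simp only [noise_mk]
    exact (Measurable.ite (measurableSet_lt (by fun_prop) (by fun_prop)) (hy a b)
      measurable_const).add
      (Measurable.ite (measurableSet_lt (by fun_prop) (by fun_prop)) (hy b a) measurable_const)

lemma rank_map {V' : Type*} {G : SimpleGraph V} {G' : SimpleGraph V'} (φ : G ≃g G')
    (R : V' → ℝ) (a b : V) : rank G' R (φ a) (φ b) = rank G (fun v => R (φ v)) a b := by
  unfold rank
  rw [← Set.ncard_image_of_injective _ φ.injective]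
  congr 1
  ext w
  obtain ⟨u, rfl⟩ := φ.surjective w
  simp [φ.map_adj_iff]

lemma noise_map {V' : Type*} {G : SimpleGraph V} {G' : SimpleGraph V'} (φ : G ≃g G')
    (R : V' → ℝ) (Y : V' × ℕ → ℝ) (e : Sym2 V) :
    noise G' R Y (e.map φ) = noise G (fun v => R (φ v)) (fun p => Y (φ p.1, p.2)) e := by
  induction e using Sym2.ind with
  | h a b => simp only [Sym2.map_mk, noise_mk, rank_map]

/-- The edge labels built from the vertex labels `U`. -/
noncomputable def edgeNoise (ξ : unitInterval → Bool × ℕ → ℝ) (G : SimpleGraph V)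
    (U : V → unitInterval) : Sym2 V → ℝ :=
  noise G (fun v => ξ (U v) (false, 0)) (fun p => ξ (U p.1) (true, p.2))

instance : IsProbabilityMeasure (iidUniform V) := by unfold iidUniform; infer_instance

lemma law_pair {ξ : unitInterval → Bool × ℕ → ℝ} (hξ : Measurable ξ)
    (hl : volume.map ξ = Measure.infinitePi fun _ => nu) :
    (iidUniform V).map (fun U => ((fun p : V × ℕ => ξ (U p.1) (false, p.2)),
      (fun p : V × ℕ => ξ (U p.1) (true, p.2)))) =
      (Measure.infinitePi fun _ : V × ℕ => nu).prod (Measure.infinitePi fun _ : V × ℕ => nu) := by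
  have h1 : (iidUniform V).map (fun U v => ξ (U v)) =
      Measure.infinitePi fun _ : V => Measure.infinitePi fun _ : Bool × ℕ => nu := by
    rw [iidUniform, Measure.infinitePi_map_pi _ (fun _ => hξ)]
    simp only [hl]
  have h2 := Measure.infinitePi_map_curry_symm (fun (_ : V) (_ : Bool × ℕ) => nu)
  have h3 := Measure.map_infinitePi_infinitePi_of_inj (P := fun _ : V × (Bool × ℕ) => nu)
    (f := fun q : Bool × (V × ℕ) => (q.2.1, (q.1, q.2.2))) (by
      rintro ⟨a, b, c⟩ ⟨a', b', c'⟩ h
      simp only [Prod.mk.injEq] at h ⊢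
      tauto)
  have h4 := Measure.infinitePi_map_curry (fun (_ : Bool) (_ : V × ℕ) => nu)
  have h5 := Measure.infinitePi_map_eval_prod
    (P := fun _ : Bool => Measure.infinitePi fun _ : V × ℕ => nu) (i := false) (j := true)
    (by simp)
  rw [← h5, ← h4, ← h3, ← h2, ← h1, Measure.map_map, Measure.map_map, Measure.map_map,
    Measure.map_map]
  · rfl
  all_goals fun_prop

lemma ae_injective [Countable V] :
    ∀ᵐ X ∂(Measure.infinitePi fun _ : V × ℕ => nu), Function.Injective fun v : V => X (v, 0) := by
  have : ∀ v w : V, ∀ᵐ X ∂(Measure.infinitePi fun _ : V × ℕ => nu),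
      X (v, 0) = X (w, 0) → v = w := by
    intro v w
    by_cases h : v = w
    · exact ae_of_all _ fun _ _ => h
    have h1 := Measure.infinitePi_map_eval_prod (P := fun _ : V × ℕ => nu)
      (i := (v, 0)) (j := (w, 0)) (by simpa using h)
    have h2 : (nu.prod nu) (diagonal ℝ) = 0 := by
      rw [Measure.prod_apply measurableSet_diagonal]
      refine (lintegral_congr fun x => ?_).trans lintegral_zero
      have : Prod.mk x ⁻¹' diagonal ℝ = {x} := by ext y; simp [eq_comm]
      rw [this, measure_singleton]
    rw [← h1, Measure.map_apply (by fun_prop) measurableSet_diagonal] at h2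
    filter_upwards [measure_eq_zero_iff_ae_notMem.1 h2] with X hX hvw
    exact absurd hvw hX
  filter_upwards [ae_all_iff.2 fun v => ae_all_iff.2 (this v)] with X hX v w h
  exact hX v w h

lemma measurable_edgeNoise [Countable V] {ξ : unitInterval → Bool × ℕ → ℝ} (hξ : Measurable ξ)
    {X : Type*} [MeasurableSpace X] {G : X → SimpleGraph V}
    (hG : Measurable G) {U : X → V → unitInterval} (hU : Measurable U) :
    Measurable fun x => edgeNoise ξ (G x) (U x) :=
  measurable_noise hG (by fun_prop) (by fun_prop)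

lemma law_edgeNoise [Countable V] {ξ : unitInterval → Bool × ℕ → ℝ} (hξ : Measurable ξ)
    (hl : volume.map ξ = Measure.infinitePi fun _ => nu) {G : SimpleGraph V}
    (hG : ∀ v, (G.neighborSet v).Finite) {F : Finset (Sym2 V)} (hF : ∀ f ∈ F, f ∈ G.edgeSet) :
    (iidUniform V).map (fun U => F.restrict (edgeNoise ξ G U)) = Measure.pi fun _ : F => nu := by
  have hm : Measurable fun q : (V × ℕ → ℝ) × (V × ℕ → ℝ) =>
      F.restrict (noise G (fun v => q.1 (v, 0)) q.2) :=
    (Finset.measurable_restrict F).comp
      (measurable_noise (G := fun _ => G) measurable_const (by fun_prop) measurable_snd)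
  have h1 : (fun U => F.restrict (edgeNoise ξ G U)) =
      (fun q : (V × ℕ → ℝ) × (V × ℕ → ℝ) => F.restrict (noise G (fun v => q.1 (v, 0)) q.2)) ∘
      (fun U => ((fun p : V × ℕ => ξ (U p.1) (false, p.2)),
        (fun p : V × ℕ => ξ (U p.1) (true, p.2)))) := rfl
  rw [h1, ← Measure.map_map hm (by fun_prop), law_pair hξ hl]
  ext B hB
  rw [Measure.map_apply hm hB, Measure.prod_apply (hm hB)]
  have h2 : ∀ᵐ X ∂(Measure.infinitePi fun _ : V × ℕ => nu),
      (Measure.infinitePi fun _ : V × ℕ => nu) (Prod.mk X ⁻¹'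
        ((fun q : (V × ℕ → ℝ) × (V × ℕ → ℝ) =>
          F.restrict (noise G (fun v => q.1 (v, 0)) q.2)) ⁻¹' B)) =
        (Measure.pi fun _ : F => nu) B := by
    filter_upwards [ae_injective] with X hX
    obtain ⟨sel, hs, hsel⟩ := exists_sel hG hX hF
    have h3 := Measure.map_infinitePi_infinitePi_of_inj (P := fun _ : V × ℕ => nu) hs
    rw [← Measure.infinitePi_eq_pi, ← h3, Measure.map_apply (by fun_prop) hB]
    congr 1
    ext Y
    simp only [mem_preimage, hsel]
  rw [lintegral_congr_ae h2]
  simp

end Vale.Agent.P143
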