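import Vale.Agent.P143.Finite
import Vale.Agent.P143.Noise

/-!
Finite-volume estimates, and exhaustions.
-/

open scoped ENNReal
open MeasureTheory Set Filter Topology

namespace Vale.Agent.P143

variable {V : Type*}

def nbhd (G : SimpleGraph V) (o : V) (n : ℕ) : Set V :=
  {w | ∃ p : G.Walk o w, p.length ≤ n}

lemma nbhd_finite {G : SimpleGraph V} (hG : ∀ v, (G.neighborSet v).Finite) (o : V) (n : ℕ) :
    (nbhd G o n).Finite := by
  induction n with
  | zero =>
    refine (finite_singleton o).subset ?_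
    rintro w ⟨p, hp⟩
    exact (p.eq_of_length_eq_zero (by omega)).symm
  | succ n ih =>
    refine ((finite_singleton o).union (ih.biUnion fun v _ => hG v)).subset ?_
    rintro w ⟨p, hp⟩
    cases hq : p.reverse with
    | nil => exact Or.inl rfl
    | cons h q =>
      have h1 := congrArg SimpleGraph.Walk.length hq
      simp only [SimpleGraph.Walk.length_reverse, SimpleGraph.Walk.length_cons] at h1
      refine Or.inr (mem_biUnion (show _ ∈ nbhd G o n from ⟨q.reverse, ?_⟩) h.symm)
      rw [SimpleGraph.Walk.length_reverse]; omega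

lemma countable_of_connected {G : SimpleGraph V} (hG : ∀ v, (G.neighborSet v).Finite)
    (hc : G.Connected) : Countable V := by
  obtain ⟨o⟩ := hc.nonempty
  rw [← countable_univ_iff]
  refine (countable_iUnion fun n => (nbhd_finite hG o n).countable).mono fun w _ => ?_
  obtain ⟨p⟩ := hc o w
  exact mem_iUnion.2 ⟨p.length, p, le_rfl⟩

lemma exists_exhaustion {G : SimpleGraph V} (hG : ∀ v, (G.neighborSet v).Finite)
    (hc : G.Connected) : ∃ H : ℕ → G.Subgraph, IsExhaustion H := by
  classical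
  obtain ⟨o⟩ := hc.nonempty
  have hm : Monotone (nbhd G o) := fun m n hmn w ⟨p, hp⟩ => ⟨p, hp.trans hmn⟩
  have hall : ∀ w, ∃ n, w ∈ nbhd G o n := fun w => by
    obtain ⟨p⟩ := hc o w
    exact ⟨p.length, p, le_rfl⟩
  refine ⟨fun n => (⊤ : G.Subgraph).induce (nbhd G o n),
    fun m n hmn => SimpleGraph.Subgraph.induce_mono_right (hm hmn),
    fun n => nbhd_finite hG o n, fun n => ?_, ?_⟩
  · have h1 : ∀ w ∈ nbhd G o n, ∃ p : G.Walk o w,
        p.toSubgraph ≤ (⊤ : G.Subgraph).induce (nbhd G o n) := by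
      rintro w ⟨p, hp⟩
      refine ⟨p, p.toSubgraph_le_induce_support.trans
        (SimpleGraph.Subgraph.induce_mono_right fun v hv => ?_)⟩
      exact ⟨p.takeUntil v hv, (p.length_takeUntil_le_length hv).trans hp⟩
    rw [SimpleGraph.Subgraph.connected_iff_forall_exists_walk_subgraph]
    refine ⟨⟨o, SimpleGraph.Walk.nil, by simp⟩, fun {u v} hu hv => ?_⟩
    obtain ⟨p, hp⟩ := h1 u hu
    obtain ⟨q, hq⟩ := h1 v hv
    exact ⟨p.reverse.append q, by simp [hp, hq]⟩
  · refine top_le_iff.1 ⟨fun w _ => ?_, fun u v huv => ?_⟩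
    · obtain ⟨n, hn⟩ := hall w
      simp only [SimpleGraph.Subgraph.verts_iSup, mem_iUnion]
      exact ⟨n, hn⟩
    · obtain ⟨m, hm'⟩ := hall u
      obtain ⟨n, hn⟩ := hall v
      rw [SimpleGraph.Subgraph.iSup_adj]
      exact ⟨max m n, hm (le_max_left _ _) hm', hm (le_max_right _ _) hn, huv⟩

lemma IsExhaustion.eventually_mem {G : SimpleGraph V} {H : ℕ → G.Subgraph} (hH : IsExhaustion H)
    {e : Sym2 V} (he : e ∈ G.edgeSet) : ∀ᶠ n in atTop, e ∈ (H n).edgeSet := by
  have : e ∈ (⨆ n, H n).edgeSet := by rw [hH.2.2.2]; exact he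
  rw [SimpleGraph.Subgraph.edgeSet_iSup, mem_iUnion] at this
  obtain ⟨m, hm⟩ := this
  exact (eventually_ge_atTop m).mono fun n hn => SimpleGraph.Subgraph.edgeSet_mono (hH.1 hn) hm

lemma edgeSet_finite {G : SimpleGraph V} {H : G.Subgraph} (h : H.verts.Finite) :
    H.edgeSet.Finite := by
  refine ((h.prod h).image fun p => s(p.1, p.2)).subset fun e he => ?_
  induction e using Sym2.ind with
  | h a b => exact ⟨(a, b), ⟨H.edge_vert he, H.edge_vert (H.adj_symm he)⟩, rfl⟩

lemma trees_nonempty {G : SimpleGraph V} {H : G.Subgraph} (hc : H.Connected)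
    {F : Finset (Sym2 V)} (hF : (F : Set (Sym2 V)) = H.edgeSet) :
    (trees H.verts F).Nonempty := by
  classical
  obtain ⟨T, hT, hA, hR⟩ := H.spanningCoe.exists_isAcyclic_reachable_eq_le
  have h1 : ((F.filter fun e => e ∈ T.edgeSet : Finset (Sym2 V)) : Set (Sym2 V)) = T.edgeSet := by
    ext e
    simp only [Finset.coe_filter, mem_ofPred_eq, and_iff_right_iff_imp]
    intro he
    have := SimpleGraph.edgeSet_mono hT he
    rwa [SimpleGraph.Subgraph.edgeSet_spanningCoe, ← hF] at this
  refine ⟨F.filter fun e => e ∈ T.edgeSet, mem_trees.2 ⟨Finset.filter_subset _ _, ?_, ?_⟩⟩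
  · rw [Acy, h1, SimpleGraph.fromEdgeSet_edgeSet]; exact hA
  · intro u hu v hv
    rw [Rch, h1, SimpleGraph.fromEdgeSet_edgeSet, hR]
    exact (hc.coe ⟨u, hu⟩ ⟨v, hv⟩).map H.coeEmbeddingSpanningCoe.toHom

open Classical in
noncomputable def cfg (G : SimpleGraph V) (T : Finset (Sym2 V)) : G.edgeSet → Bool :=
  fun e => decide (e.1 ∈ T)

lemma openEdges_cfg {G : SimpleGraph V} {T : Finset (Sym2 V)} (hT : ∀ e ∈ T, e ∈ G.edgeSet) :
    openEdges (cfg G T) = T := by
  ext e
  simp only [openEdges, cfg, decide_eq_true_eq, exists_prop, mem_ofPred_eq, Finset.mem_coe,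
    and_iff_right_iff_imp]
  exact hT e

open Classical in
lemma spanning_eq {G : SimpleGraph V} {H : G.Subgraph}
    {F : Finset (Sym2 V)} (hF : (F : Set (Sym2 V)) = H.edgeSet) :
    {ω : G.edgeSet → Bool | IsSpanningTreeOf H (openEdges ω)} =
      ((trees H.verts F).image (cfg G) : Finset (G.edgeSet → Bool)) := by
  have hFG : ∀ e ∈ F, e ∈ G.edgeSet := fun e he =>
    H.edgeSet_subset (by rw [← hF]; exact_mod_cast he)
  ext ω
  simp only [mem_ofPred_eq, Finset.coe_image, mem_image, Finset.mem_coe, mem_trees]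
  constructor
  · rintro ⟨h1, h2, h3⟩
    have h4 : ((F.filter fun e => e ∈ openEdges ω : Finset (Sym2 V)) : Set (Sym2 V)) =
        openEdges ω := by
      ext e
      simp only [Finset.coe_filter, mem_ofPred_eq, and_iff_right_iff_imp]
      intro he
      have := h1 he
      rwa [← hF] at this
    refine ⟨F.filter fun e => e ∈ openEdges ω, ⟨Finset.filter_subset _ _, ?_, ?_⟩, ?_⟩
    · rw [Acy, h4]; exact h2
    · intro u hu v hv
      rw [Rch, h4]; exact h3 u hu v hv
    · funext e
      have h5 : e.1 ∈ (F.filter fun e => e ∈ openEdges ω) ↔ ω e = true := by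
        rw [← Finset.mem_coe, h4]
        exact ⟨fun ⟨_, h⟩ => h, fun h => ⟨e.2, h⟩⟩
      simp only [cfg, h5, Bool.decide_eq_true]
  · rintro ⟨T, ⟨h1, h2, h3⟩, rfl⟩
    rw [openEdges_cfg fun e he => hFG e (h1 he)]
    exact ⟨by rw [← hF]; exact_mod_cast h1, h2, h3⟩

open Classical in
lemma ust_apply [Countable V] {G : SimpleGraph V} {H : G.Subgraph} (hc : H.Connected)
    {F : Finset (Sym2 V)} (hF : (F : Set (Sym2 V)) = H.edgeSet) (A : Set (G.edgeSet → Bool)) :
    ((trees H.verts F).card : ℝ≥0∞) * ust H A =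
      ∑ T ∈ trees H.verts F, if cfg G T ∈ A then 1 else 0 := by
  have hFG : ∀ e ∈ F, e ∈ G.edgeSet := fun e he =>
    H.edgeSet_subset (by rw [← hF]; exact_mod_cast he)
  have hinj : InjOn (cfg G) (trees H.verts F) := fun T hT T' hT' h => by
    have h1 := openEdges_cfg (G := G) fun e he => hFG e ((mem_trees.1 hT).1 he)
    have h2 := openEdges_cfg (G := G) fun e he => hFG e ((mem_trees.1 hT').1 he)
    rw [h, h2] at h1
    exact_mod_cast h1.symm
  have h1 : (((trees H.verts F).image (cfg G) : Finset (G.edgeSet → Bool)) :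
      Set (G.edgeSet → Bool)) ∩ A =
      (((trees H.verts F).filter fun T => cfg G T ∈ A).image (cfg G) :
        Finset (G.edgeSet → Bool)) := by
    ext ω
    simp only [Finset.coe_image, Finset.coe_filter, mem_inter_iff, mem_image, Finset.mem_coe,
      mem_ofPred_eq]
    constructor
    · rintro ⟨⟨T, hT, rfl⟩, h⟩; exact ⟨T, ⟨hT, h⟩, rfl⟩
    · rintro ⟨T, ⟨hT, h⟩, rfl⟩; exact ⟨⟨T, hT, rfl⟩, h⟩
  rw [ust, spanning_eq hF, ProbabilityTheory.uniformOn,
    ProbabilityTheory.cond_apply (Finset.measurableSet _), h1, Measure.count_apply_finset,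
    Measure.count_apply_finset, Finset.card_image_of_injOn hinj,
    Finset.card_image_of_injOn (hinj.mono (Finset.coe_subset.2 (Finset.filter_subset _ _))), ← mul_assoc, ENNReal.mul_inv_cancel,
    one_mul, Finset.sum_boole]
  · simpa using (trees_nonempty hc hF).ne_empty
  · simp

lemma isProbabilityMeasure_ust [Countable V] {G : SimpleGraph V} {H : G.Subgraph}
    (hv : H.verts.Finite) (hc : H.Connected) : IsProbabilityMeasure (ust H) := by
  classical
  have hF := (edgeSet_finite hv).coe_toFinset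
  rw [ust, spanning_eq hF]
  exact ProbabilityTheory.isProbabilityMeasure_uniformOn (Finset.finite_toSet _)
    (by simpa using trees_nonempty hc hF)

lemma pi_nu_tail {ι : Type*} [Fintype ι] (f : ι) (k : ℕ) :
    (Measure.pi fun _ : ι => nu) {z | (k : ℝ) / 2 - 5 ≤ |z f|} = eps k :=
  (measurePreserving_eval (fun _ : ι => nu) f).measure_preimage
    (s := {y : ℝ | (k : ℝ) / 2 - 5 ≤ |y|})
    (measurableSet_le measurable_const measurable_abs).nullMeasurableSet

lemma approx [Countable V] {ξ : unitInterval → Bool × ℕ → ℝ} (hξ : Measurable ξ)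
    (hl : volume.map ξ = Measure.infinitePi fun _ => nu) {G : SimpleGraph V}
    (hG : ∀ v, (G.neighborSet v).Finite) {H : G.Subgraph} (hv : H.verts.Finite)
    (hc : H.Connected) (k : ℕ) :
    ∃ W : (V → unitInterval) → Sym2 V → ℝ,
      (∀ U, ∀ e ∈ H.edgeSet, |yk H.spanningCoe (edgeNoise ξ G U) k e - W U e| ≤ 1 / 2) ∧
      (∀ e ∈ H.edgeSet, iidUniform V {U | |W U e - k / 2| < 5} ≤ eps k) ∧
      ∀ (S : Finset G.edgeSet) (A : Set (S → Bool)), (∀ e ∈ S, e.1 ∈ H.edgeSet) →
        iidUniform V {U | (fun e : S => decide ((k : ℝ) / 2 < W U e.1.1)) ∈ A} ≤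
          ust H (S.restrict ⁻¹' A) + S.card * eps k := by
  classical
  set F := (edgeSet_finite hv).toFinset
  have hF : (F : Set (Sym2 V)) = H.edgeSet := (edgeSet_finite hv).coe_toFinset
  have hmem : ∀ e, e ∈ H.edgeSet → e ∈ F := fun e he => by rw [← hF] at he; exact_mod_cast he
  have hne := trees_nonempty hc hF
  obtain ⟨Ψ, hΨ, hlaw, hclose⟩ := finite_scheme (K := H.spanningCoe) (W := H.verts) (F := F)
    (by rw [hF, SimpleGraph.Subgraph.edgeSet_spanningCoe])
    (fun x y h => H.edge_vert (show s(x, y) ∈ H.edgeSet by rw [← hF]; exact_mod_cast h)) hne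
    (stepSize_pos k).le
  have hZ := law_edgeNoise hξ hl hG (F := F) fun e he =>
    H.edgeSet_subset (by rw [← hF]; exact_mod_cast he)
  have hZm : Measurable fun U : V → unitInterval => F.restrict (edgeNoise ξ G U) :=
    (Finset.measurable_restrict F).comp (measurable_edgeNoise hξ measurable_const measurable_id)
  have htime : ((k * numSteps k : ℕ) : ℝ) * stepSize k = k := by
    push_cast; rw [mul_assoc, numSteps_mul, mul_one]
  have hN0 : ((trees H.verts F).card : ℝ≥0∞) ≠ 0 := by simpa using hne.ne_empty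
  have key : ∀ B : Set (F → ℝ), MeasurableSet B → ((trees H.verts F).card : ℝ≥0∞) *
      iidUniform V {U | Ψ (k * numSteps k) (F.restrict (edgeNoise ξ G U)) ∈ B} =
      ∑ T ∈ trees H.verts F, (Measure.pi fun _ : F => nu)
        {z | (fun f => z f + k * ind (memT F) T f) ∈ B} := by
    intro B hB
    have := hlaw (k * numSteps k) B hB
    rw [htime] at this
    rw [← this, ← hZ, Measure.map_apply hZm (hΨ _ hB)]
    rfl
  refine ⟨fun U => ext F (Ψ (k * numSteps k) (F.restrict (edgeNoise ξ G U))),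
    fun U e he => ?_, fun e he => ?_, fun S A hS => ?_⟩
  · have := hclose (edgeNoise ξ G U) (k * numSteps k) ⟨e, hmem e he⟩
    rw [← ext_coe F (Ψ _ _)] at this
    exact this.trans (step_bound k)
  · rw [← ENNReal.mul_le_mul_iff_right hN0 (by simp)]
    have h1 := key {x | |x ⟨e, hmem e he⟩ - k / 2| < 5}
      (measurableSet_lt (by fun_prop) measurable_const)
    simp only [mem_ofPred_eq, ext, dif_pos (hmem e he)] at h1 ⊢
    rw [h1, ← nsmul_eq_mul, ← Finset.sum_const]
    refine Finset.sum_le_sum fun T _ => ?_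
    rw [← pi_nu_tail (⟨e, hmem e he⟩ : F) k]
    refine measure_mono fun z hz => ?_
    simp only [mem_ofPred_eq, ind] at hz ⊢
    rw [abs_lt] at hz
    split_ifs at hz
    · have := neg_le_abs (z ⟨e, hmem e he⟩); linarith [hz.2]
    · have := le_abs_self (z ⟨e, hmem e he⟩); linarith [hz.1]
  · rw [← ENNReal.mul_le_mul_iff_right hN0 (by simp)]
    have hm : Measurable fun (x : F → ℝ) (e : S) =>
        decide ((k : ℝ) / 2 < x ⟨e.1.1, hmem _ (hS e.1 e.2)⟩) := by
      refine measurable_pi_lambda _ fun e => measurable_to_bool ?_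
      have : (fun x : F → ℝ => decide ((k : ℝ) / 2 < x ⟨e.1.1, hmem _ (hS e.1 e.2)⟩)) ⁻¹' {true}
          = {x | (k : ℝ) / 2 < x ⟨e.1.1, hmem _ (hS e.1 e.2)⟩} := by ext x; simp
      rw [this]
      exact measurableSet_lt measurable_const (by fun_prop)
    have h1 := key _ (hm (toFinite A).measurableSet)
    have h2 : ∀ (x : F → ℝ) (e : S), ext F x e.1.1 = x ⟨e.1.1, hmem _ (hS e.1 e.2)⟩ :=
      fun x e => dif_pos _
    simp only [mem_preimage] at h1
    simp only [h2]
    rw [h1, mul_add, ust_apply hc hF, ← nsmul_eq_mul, ← Finset.sum_const,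
      ← Finset.sum_add_distrib]
    refine Finset.sum_le_sum fun T _ => ?_
    split_ifs with hT
    · exact prob_le_one.trans le_self_add
    rw [zero_add]
    calc _ ≤ (Measure.pi fun _ : F => nu) (⋃ e ∈ (Finset.univ : Finset S),
          {z | (k : ℝ) / 2 - 5 ≤ |z ⟨e.1.1, hmem _ (hS e.1 e.2)⟩|}) := by
          refine measure_mono fun z hz => ?_
          by_contra hcon
          simp only [Finset.mem_univ, iUnion_true, mem_iUnion, mem_ofPred_eq, not_exists,
            not_le] at hcon
          refine hT ?_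
          simp only [mem_ofPred_eq] at hz
          rw [mem_preimage]
          convert hz using 1
          funext e
          have h3 := abs_lt.1 (hcon e)
          simp only [Finset.restrict, cfg]
          rw [decide_eq_decide]
          by_cases h4 : e.1.1 ∈ T
          · rw [ind, if_pos (show memT F T ⟨e.1.1, hmem _ (hS e.1 e.2)⟩ from h4)]
            simp only [h4, true_iff]; linarith [h3.1]
          · rw [ind, if_neg (show ¬ memT F T ⟨e.1.1, hmem _ (hS e.1 e.2)⟩ from h4)]
            simp only [h4, false_iff, not_lt]; linarith [h3.2]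
      _ ≤ ∑ e : S, (Measure.pi fun _ : F => nu)
          {z | (k : ℝ) / 2 - 5 ≤ |z ⟨e.1.1, hmem _ (hS e.1 e.2)⟩|} :=
          measure_biUnion_finset_le _ _
      _ = S.card * eps k := by
          rw [Finset.sum_congr rfl fun (e : S) _ =>
            pi_nu_tail (⟨e.1.1, hmem _ (hS e.1 e.2)⟩ : F) k]
          simp

end Vale.Agent.P143
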