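import Vale.Agent.P143.Main

open MeasureTheory Set

namespace Vale.Agent.P143

variable {Γ : Type*} [Group Γ] {S : Set Γ}

lemma cayley_connected (hS : Subgroup.closure S = ⊤) : (SimpleGraph.mulCayley S).Connected := by
  have key : ∀ g ∈ Subgroup.closure S, ∀ x, (SimpleGraph.mulCayley S).Reachable x (x * g) := by
    intro g hg
    induction hg using Subgroup.closure_induction with
    | mem s hs =>
      intro x
      by_cases h : x = x * s
      · rw [← h]
      · exact SimpleGraph.Adj.reachable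
          ((SimpleGraph.mulCayley_adj' S _ _).2 ⟨h, s, hs, Or.inl rfl⟩)
    | one => intro x; rw [mul_one]
    | mul a b _ _ ha hb => intro x; rw [← mul_assoc]; exact (ha x).trans (hb _)
    | inv a _ ha =>
      intro x
      have := ha (x * a⁻¹)
      rw [inv_mul_cancel_right] at this
      exact this.symm
  refine SimpleGraph.Connected.mk fun u v => ?_
  have := key (u⁻¹ * v) (hS ▸ Subgroup.mem_top _) u
  rwa [mul_inv_cancel_left] at this

lemma cayley_locallyFinite (hS : S.Finite) (v : Γ) :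
    ((SimpleGraph.mulCayley S).neighborSet v).Finite := by
  refine ((hS.image fun s => v * s).union (hS.image fun s => v * s⁻¹)).subset fun w hw => ?_
  obtain ⟨-, s, hs, h | h⟩ := (SimpleGraph.mulCayley_adj' S _ _).1 hw
  · exact Or.inl ⟨s, hs, h⟩
  · exact Or.inr ⟨s, hs, by simp [h]⟩

def cayleyIso (S : Set Γ) (γ : Γ) : SimpleGraph.mulCayley S ≃g SimpleGraph.mulCayley S where
  toEquiv := Equiv.mulLeft γ
  map_rel_iff' := SimpleGraph.mulCayley_adj_mul_iff_right

theorem cayley_factor (hfin : S.Finite) (hS : Subgroup.closure S = ⊤) :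
    ∃ Φ : (Γ → unitInterval) → ((SimpleGraph.mulCayley S).edgeSet → Bool), Measurable Φ ∧
      (∀ (γ : Γ) (U : Γ → unitInterval) (g h : Γ)
          (he : s(g, h) ∈ (SimpleGraph.mulCayley S).edgeSet)
          (he' : s(γ * g, γ * h) ∈ (SimpleGraph.mulCayley S).edgeSet),
        Φ (fun v => U (γ⁻¹ * v)) ⟨s(γ * g, γ * h), he'⟩ = Φ U ⟨s(g, h), he⟩) ∧
      IsFUSF (SimpleGraph.mulCayley S) ((iidUniform Γ).map Φ) := by
  obtain ⟨ξ, hξ, hl⟩ := exists_xi
  have := countable_of_connected (cayley_locallyFinite hfin) (cayley_connected hS)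
  refine ⟨fun U e => phi ξ _ U e.1,
    measurable_pi_lambda _ fun e => measurable_phi hξ measurable_const measurable_id e.1,
    fun γ U g h _ _ => ?_, isFUSF_phi hξ hl (cayley_locallyFinite hfin) (cayley_connected hS)⟩
  have h1 := phi_map ξ (cayleyIso S γ) (fun v => U (γ⁻¹ * v)) s(g, h)
  have h2 : (fun v => U (γ⁻¹ * cayleyIso S γ v)) = U := by
    funext v
    change U (γ⁻¹ * (γ * v)) = U v
    rw [inv_mul_cancel_left]
  rw [h2] at h1
  exact h1

theorem graph_factor :
    ∃ Φ : SimpleGraph ℕ → (ℕ → unitInterval) → Sym2 ℕ → Bool,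
      (∀ e, Measurable fun p : SimpleGraph ℕ × (ℕ → unitInterval) => Φ p.1 p.2 e) ∧
      (∀ (G G' : SimpleGraph ℕ) (φ : G ≃g G') (U : ℕ → unitInterval) (e : Sym2 ℕ),
        Φ G' (fun v => U (φ.symm v)) (e.map φ) = Φ G U e) ∧
      ∀ G : SimpleGraph ℕ, G.Connected → (∀ v, (G.neighborSet v).Finite) →
        IsFUSF G ((iidUniform ℕ).map fun U (e : G.edgeSet) => Φ G U e.1) := by
  obtain ⟨ξ, hξ, hl⟩ := exists_xi
  refine ⟨phi ξ, fun e => measurable_phi hξ measurable_fst measurable_snd e,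
    fun G G' φ U e => ?_, fun G hc hG => isFUSF_phi hξ hl hG hc⟩
  rw [phi_map ξ φ]
  simp

end Vale.Agent.P143
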