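import Mathlib

/-!
Free effective conductance through the Dirichlet principle, and the drift `w e / C(w, e)`.
-/

open scoped ENNReal
open Filter Topology MeasureTheory

namespace Vale.Agent.P143

variable {V : Type*}

noncomputable def dsq (φ : V → ℝ) : Sym2 V → ℝ :=
  Sym2.lift ⟨fun a b => (φ a - φ b) ^ 2, fun a b => by ring⟩

@[simp] lemma dsq_mk (φ : V → ℝ) (a b : V) : dsq φ s(a, b) = (φ a - φ b) ^ 2 := rfl

lemma dsq_nonneg (φ : V → ℝ) (e : Sym2 V) : 0 ≤ dsq φ e := by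
  induction e using Sym2.ind with
  | h a b => simp only [dsq_mk]; positivity

noncomputable def energy (w : Sym2 V → ℝ) (φ : V → ℝ) : ℝ≥0∞ :=
  ∑' e, ENNReal.ofReal (w e * dsq φ e)

noncomputable def cond (w : Sym2 V → ℝ) (e : Sym2 V) : ℝ≥0∞ :=
  ⨅ φ : {φ : V → ℝ // dsq φ e = 1}, energy w φ.1

noncomputable def drift (w : Sym2 V → ℝ) (e : Sym2 V) : ℝ := w e / (cond w e).toReal

lemma cond_le_energy (w : Sym2 V → ℝ) {e : Sym2 V} {φ : V → ℝ} (h : dsq φ e = 1) :
    cond w e ≤ energy w φ :=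
  iInf_le_of_le ⟨φ, h⟩ le_rfl

lemma ofReal_le_cond (w : Sym2 V → ℝ) (e : Sym2 V) : ENNReal.ofReal (w e) ≤ cond w e := by
  refine le_iInf fun φ => ?_
  have := ENNReal.le_tsum (f := fun f => ENNReal.ofReal (w f * dsq φ.1 f)) e
  rwa [φ.2, mul_one] at this

lemma energy_le_mul {w w' : Sym2 V → ℝ} {K : ℝ} (hK : 0 ≤ K) (h : ∀ e, w e ≤ K * w' e)
    (φ : V → ℝ) : energy w φ ≤ ENNReal.ofReal K * energy w' φ := by
  unfold energy
  rw [← ENNReal.tsum_mul_left]
  refine ENNReal.tsum_le_tsum fun e => ?_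
  rw [← ENNReal.ofReal_mul hK, ← mul_assoc]
  exact ENNReal.ofReal_le_ofReal (mul_le_mul_of_nonneg_right (h e) (dsq_nonneg φ e))

lemma cond_le_mul {w w' : Sym2 V → ℝ} {K : ℝ} (hK : 0 < K) (h : ∀ e, w e ≤ K * w' e)
    (e : Sym2 V) : cond w e ≤ ENNReal.ofReal K * cond w' e := by
  unfold cond
  rw [ENNReal.mul_iInf_of_ne (by simpa using hK) ENNReal.ofReal_ne_top]
  exact iInf_mono fun φ => energy_le_mul hK.le h φ.1

lemma drift_nonneg {w : Sym2 V → ℝ} {e : Sym2 V} (h : 0 ≤ w e) : 0 ≤ drift w e :=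
  div_nonneg h ENNReal.toReal_nonneg

lemma le_toReal_cond {w : Sym2 V → ℝ} {e : Sym2 V} (h : 0 ≤ w e) (hc : cond w e ≠ ⊤) :
    w e ≤ (cond w e).toReal := by
  have := ENNReal.toReal_mono hc (ofReal_le_cond w e)
  rwa [ENNReal.toReal_ofReal h] at this

lemma drift_le_one {w : Sym2 V → ℝ} {e : Sym2 V} (h : 0 ≤ w e) : drift w e ≤ 1 := by
  unfold drift
  by_cases hc : cond w e = ⊤
  · simp [hc]
  · exact div_le_one_of_le₀ (le_toReal_cond h hc) ENNReal.toReal_nonneg

lemma drift_le_mul {w w' : Sym2 V → ℝ} {K : ℝ} (hK : 0 < K) (h0 : ∀ e, 0 ≤ w e)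
    (h0' : ∀ e, 0 ≤ w' e) (h : ∀ e, w e ≤ K * w' e) (h' : ∀ e, w' e ≤ K * w e) (e : Sym2 V) :
    drift w e ≤ K ^ 2 * drift w' e := by
  have hn : 0 ≤ K ^ 2 * drift w' e := mul_nonneg (sq_nonneg K) (drift_nonneg (h0' e))
  by_cases hc : cond w e = ⊤
  · have : drift w e = 0 := by simp [drift, hc]
    rw [this]; exact hn
  rcases (h0 e).eq_or_lt with hw | hw
  · have : drift w e = 0 := by simp [drift, ← hw]
    rw [this]; exact hn
  have h1 := cond_le_mul hK h' e
  have hc' : cond w' e ≠ ⊤ :=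
    ne_top_of_le_ne_top (ENNReal.mul_ne_top ENNReal.ofReal_ne_top hc) h1
  have h2 := ENNReal.toReal_mono (ENNReal.mul_ne_top ENNReal.ofReal_ne_top hc) h1
  rw [ENNReal.toReal_mul, ENNReal.toReal_ofReal hK.le] at h2
  have hw' : 0 < w' e := by
    by_contra hh
    have : K * w' e ≤ 0 := mul_nonpos_of_nonneg_of_nonpos hK.le (not_lt.1 hh)
    linarith [h e]
  have hC : 0 < (cond w e).toReal := hw.trans_le (le_toReal_cond (h0 e) hc)
  have hC' : 0 < (cond w' e).toReal := hw'.trans_le (le_toReal_cond (h0' e) hc')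
  unfold drift
  rw [div_le_iff₀ hC, mul_div_assoc', div_mul_eq_mul_div, le_div_iff₀ hC']
  calc w e * (cond w' e).toReal ≤ (K * w' e) * (K * (cond w e).toReal) :=
        mul_le_mul (h e) h2 hC'.le (mul_nonneg hK.le (h0' e))
    _ = K ^ 2 * w' e * (cond w e).toReal := by ring

lemma drift_sub_le {w w' : Sym2 V → ℝ} {δ : ℝ} (h0 : ∀ e, 0 ≤ w e)
    (h0' : ∀ e, 0 ≤ w' e) (h : ∀ e, w e ≤ Real.exp δ * w' e)
    (h' : ∀ e, w' e ≤ Real.exp δ * w e) (hδ : 0 ≤ δ) (e : Sym2 V) :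
    drift w e - drift w' e ≤ 2 * δ := by
  have h1 := drift_le_mul (Real.exp_pos δ) h0 h0' h h' e
  have h2 : Real.exp (-(2 * δ)) * drift w e ≤ drift w' e := by
    have h3 : Real.exp (-(2 * δ)) * Real.exp δ ^ 2 = 1 := by
      rw [sq, ← Real.exp_add, ← Real.exp_add]; simp; ring
    calc Real.exp (-(2 * δ)) * drift w e
        ≤ Real.exp (-(2 * δ)) * (Real.exp δ ^ 2 * drift w' e) :=
          mul_le_mul_of_nonneg_left h1 (Real.exp_pos _).le
      _ = drift w' e := by rw [← mul_assoc, h3, one_mul]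
  have h4 : 1 - 2 * δ ≤ Real.exp (-(2 * δ)) := by
    have := Real.add_one_le_exp (-(2 * δ)); linarith
  have h5 := drift_nonneg (h0 e)
  have h6 := drift_le_one (h0 e)
  nlinarith

lemma abs_drift_sub_le {w w' : Sym2 V → ℝ} {δ : ℝ} (h0 : ∀ e, 0 ≤ w e)
    (h0' : ∀ e, 0 ≤ w' e) (h : ∀ e, w e ≤ Real.exp δ * w' e)
    (h' : ∀ e, w' e ≤ Real.exp δ * w e) (hδ : 0 ≤ δ) (e : Sym2 V) :
    |drift w e - drift w' e| ≤ 2 * δ := by
  rw [abs_sub_le_iff]
  exact ⟨drift_sub_le h0 h0' h h' hδ e, drift_sub_le h0' h0 h' h hδ e⟩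

lemma exists_clamp {φ : V → ℝ} {a b : V} (h : dsq φ s(a, b) = 1) :
    ∃ ψ : V → ℝ, (∀ v, ψ v ∈ Set.Icc (0 : ℝ) 1) ∧ ψ a = 1 ∧ ψ b = 0 ∧
      ∀ f, dsq ψ f ≤ dsq φ f := by
  rw [dsq_mk] at h
  refine ⟨fun v => max 0 (min 1 ((φ v - φ b) * (φ a - φ b))), fun v => ⟨le_max_left _ _,
    max_le zero_le_one (min_le_left _ _)⟩, ?_, ?_, fun f => ?_⟩
  · simp only [← sq, h]; simp
  · simp
  induction f using Sym2.ind with
  | h x y =>
    simp only [dsq_mk]
    have h1 : |max 0 (min 1 ((φ x - φ b) * (φ a - φ b))) -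
        max 0 (min 1 ((φ y - φ b) * (φ a - φ b)))| ≤
        |(φ x - φ b) * (φ a - φ b) - (φ y - φ b) * (φ a - φ b)| := by
      refine (abs_max_sub_max_le_max _ _ _ _).trans ?_
      simp only [sub_self, abs_zero]
      refine max_le (abs_nonneg _) ((abs_min_sub_min_le_max _ _ _ _).trans ?_)
      simp only [sub_self, abs_zero]
      exact max_le (abs_nonneg _) le_rfl
    have h2 := sq_le_sq.2 h1
    calc _ ≤ _ := h2
      _ = (φ x - φ y) ^ 2 * (φ a - φ b) ^ 2 := by ring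
      _ = _ := by rw [h, mul_one]

lemma ofReal_mul_mono {c s t : ℝ} (hs : 0 ≤ s) (h : s ≤ t) :
    ENNReal.ofReal (c * s) ≤ ENNReal.ofReal (c * t) := by
  rcases le_total 0 c with hc | hc
  · exact ENNReal.ofReal_le_ofReal (mul_le_mul_of_nonneg_left h hc)
  · rw [ENNReal.ofReal_of_nonpos (mul_nonpos_of_nonpos_of_nonneg hc hs)]; exact zero_le

lemma energy_mono (w : Sym2 V → ℝ) {φ ψ : V → ℝ} (h : ∀ f, dsq ψ f ≤ dsq φ f) :
    energy w ψ ≤ energy w φ :=
  ENNReal.tsum_le_tsum fun f => ofReal_mul_mono (dsq_nonneg ψ f) (h f)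

lemma continuous_dsq (f : Sym2 V) : Continuous fun φ : V → ℝ => dsq φ f := by
  induction f using Sym2.ind with
  | h x y => simp only [dsq_mk]; fun_prop

lemma eventually_lt_cond {w : ℕ → Sym2 V → ℝ} {w' : Sym2 V → ℝ}
    (hw : ∀ e, Tendsto (fun n => w n e) atTop (𝓝 (w' e))) (e : Sym2 V) {r : ℝ≥0∞}
    (hr : r < cond w' e) : ∀ᶠ n in atTop, r < cond (w n) e := by
  obtain ⟨r', hr1, hr2⟩ := exists_between hr
  by_contra hcon
  have hfr : ∃ᶠ n in atTop, cond (w n) e < r' := by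
    rw [not_eventually] at hcon
    exact hcon.mono fun n hn => (not_lt.1 hn).trans_lt hr1
  induction e using Sym2.ind with
  | h a b =>
  have hex : ∀ n, ∃ ψ : V → ℝ, (∀ v, ψ v ∈ Set.Icc (0 : ℝ) 1) ∧ ψ a = 1 ∧ ψ b = 0 ∧
      (cond (w n) s(a, b) < r' → energy (w n) ψ < r') := by
    obtain ⟨n0, hn0⟩ := hfr.exists
    intro n
    by_cases hn : cond (w n) s(a, b) < r'
    · obtain ⟨φ, hφ⟩ := iInf_lt_iff.1 hn
      obtain ⟨ψ, h1, h2, h3, h4⟩ := exists_clamp φ.2
      exact ⟨ψ, h1, h2, h3, fun _ => (energy_mono _ h4).trans_lt hφ⟩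
    · obtain ⟨φ, -⟩ := iInf_lt_iff.1 hn0
      obtain ⟨ψ, h1, h2, h3, -⟩ := exists_clamp φ.2
      exact ⟨ψ, h1, h2, h3, fun h => absurd h hn⟩
  choose ψ h1 h2 h3 h4 using hex
  have hne : (atTop ⊓ 𝓟 {n | cond (w n) s(a, b) < r'}).NeBot := frequently_iff_neBot.1 hfr
  let U : Ultrafilter ℕ := Ultrafilter.of (atTop ⊓ 𝓟 {n | cond (w n) s(a, b) < r'})
  have hU : (U : Filter ℕ) ≤ atTop ⊓ 𝓟 {n | cond (w n) s(a, b) < r'} := Ultrafilter.of_le _
  have hlim : ∀ v, ∃ x : ℝ, Tendsto (fun n => ψ n v) U (𝓝 x) := by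
    intro v
    obtain ⟨x, -, hx⟩ := (isCompact_Icc (a := (0 : ℝ)) (b := 1)).ultrafilter_le_nhds
      (U.map fun n => ψ n v) (by
        rw [Ultrafilter.coe_map, le_principal_iff, mem_map]
        exact univ_mem' fun n => h1 n v)
    exact ⟨x, hx⟩
  choose φ hφ using hlim
  have hφ' : Tendsto ψ U (𝓝 φ) := tendsto_pi_nhds.2 hφ
  have ha : φ a = 1 := tendsto_nhds_unique (hφ a) (by simp only [h2]; exact tendsto_const_nhds)
  have hb : φ b = 0 := tendsto_nhds_unique (hφ b) (by simp only [h3]; exact tendsto_const_nhds)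
  have hle : energy w' φ ≤ r' := by
    unfold energy
    rw [ENNReal.tsum_eq_iSup_sum]
    refine iSup_le fun S => ?_
    have ht : Tendsto (fun n => ∑ f ∈ S, ENNReal.ofReal (w n f * dsq (ψ n) f)) U
        (𝓝 (∑ f ∈ S, ENNReal.ofReal (w' f * dsq φ f))) := by
      refine tendsto_finsetSum _ fun f _ => ?_
      refine (ENNReal.continuous_ofReal.tendsto _).comp ?_
      exact ((hw f).mono_left (hU.trans inf_le_left)).mul
        (((continuous_dsq f).tendsto _).comp hφ')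
    refine le_of_tendsto ht ?_
    have : ∀ᶠ n in (U : Filter ℕ), cond (w n) s(a, b) < r' :=
      (hU.trans inf_le_right) (mem_principal_self _)
    exact this.mono fun n hn => (ENNReal.sum_le_tsum S).trans (h4 n hn).le
  have := cond_le_energy w' (e := s(a, b)) (φ := φ) (by simp [ha, hb])
  exact absurd (this.trans hle) (not_le.2 hr2)

lemma tendsto_energy {w : ℕ → Sym2 V → ℝ} {w' : Sym2 V → ℝ} {K : ℝ} (hK : 0 ≤ K)
    (hw : ∀ e, Tendsto (fun n => w n e) atTop (𝓝 (w' e)))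
    (hd : ∀ n e, w n e ≤ K * max (w' e) 0) {φ : V → ℝ} (hφ : energy w' φ ≠ ⊤) :
    Tendsto (fun n => energy (w n) φ) atTop (𝓝 (energy w' φ)) := by
  let _ : MeasurableSpace (Sym2 V) := ⊤
  unfold energy at hφ ⊢
  simp only [← lintegral_count' (measurable_from_top)] at hφ ⊢
  refine tendsto_lintegral_of_dominated_convergence
    (fun f => ENNReal.ofReal K * ENNReal.ofReal (w' f * dsq φ f))
    (fun _ => measurable_from_top) (fun n => ae_of_all _ fun f => ?_) ?_
    (ae_of_all _ fun f => ?_)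
  · rcases le_total 0 (w' f) with h | h
    · simp only
      rw [← ENNReal.ofReal_mul hK, ← mul_assoc]
      have := hd n f
      rw [max_eq_left h] at this
      exact ENNReal.ofReal_le_ofReal (mul_le_mul_of_nonneg_right this (dsq_nonneg φ f))
    · have := hd n f
      rw [max_eq_right h, mul_zero] at this
      simp only
      rw [ENNReal.ofReal_of_nonpos (mul_nonpos_of_nonpos_of_nonneg this (dsq_nonneg φ f))]
      exact zero_le
  · rw [lintegral_const_mul _ measurable_from_top]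
    exact ENNReal.mul_ne_top ENNReal.ofReal_ne_top hφ
  · exact (ENNReal.continuous_ofReal.tendsto _).comp ((hw f).mul tendsto_const_nhds)

lemma tendsto_cond {w : ℕ → Sym2 V → ℝ} {w' : Sym2 V → ℝ} {K : ℝ} (hK : 0 ≤ K)
    (hw : ∀ e, Tendsto (fun n => w n e) atTop (𝓝 (w' e)))
    (hd : ∀ n e, w n e ≤ K * max (w' e) 0) (e : Sym2 V) :
    Tendsto (fun n => cond (w n) e) atTop (𝓝 (cond w' e)) := by
  refine tendsto_order.2 ⟨fun r hr => eventually_lt_cond hw e hr, fun r hr => ?_⟩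
  obtain ⟨φ, hφ⟩ := iInf_lt_iff.1 hr
  have := (tendsto_order.1 (tendsto_energy hK hw hd hφ.ne_top)).2 r hφ
  exact this.mono fun n hn => (cond_le_energy _ φ.2).trans_lt hn

lemma tendsto_drift {w : ℕ → Sym2 V → ℝ} {w' : Sym2 V → ℝ} {K : ℝ} (hK : 0 ≤ K)
    (hw : ∀ e, Tendsto (fun n => w n e) atTop (𝓝 (w' e)))
    (hd : ∀ n e, w n e ≤ K * max (w' e) 0) {e : Sym2 V} (he : 0 < w' e)
    (hc : cond w' e ≠ ⊤) :
    Tendsto (fun n => drift (w n) e) atTop (𝓝 (drift w' e)) :=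
  (hw e).div ((ENNReal.tendsto_toReal hc).comp (tendsto_cond hK hw hd e))
    (he.trans_le (le_toReal_cond he.le hc)).ne'

lemma energy_eq_sum {w : Sym2 V → ℝ} {S : Finset (Sym2 V)} (h : ∀ e ∉ S, w e = 0)
    (φ : V → ℝ) : energy w φ = ∑ e ∈ S, ENNReal.ofReal (w e * dsq φ e) :=
  tsum_eq_sum fun e he => by simp [h e he]

lemma measurable_cond_trunc [Countable V] (S : Finset (Sym2 V)) (e : Sym2 V) :
    Measurable fun w : Sym2 V → ℝ => cond ((S : Set (Sym2 V)).indicator w) e := by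
  have : SecondCountableTopology {φ : V → ℝ // dsq φ e = 1} :=
    TopologicalSpace.Subtype.secondCountableTopology {φ : V → ℝ | dsq φ e = 1}
  obtain ⟨D, hDc, hD⟩ := TopologicalSpace.exists_countable_dense {φ : V → ℝ // dsq φ e = 1}
  have := hDc.to_subtype
  have h0 : ∀ w : Sym2 V → ℝ, ∀ f ∉ S, (S : Set (Sym2 V)).indicator w f = 0 := fun w f hf =>
    Set.indicator_of_notMem (by simpa using hf) _
  have : (fun w : Sym2 V → ℝ => cond ((S : Set (Sym2 V)).indicator w) e) =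
      fun w => ⨅ φ : D, ∑ f ∈ S, ENNReal.ofReal (w f * dsq φ.1.1 f) := by
    funext w
    have hE : ∀ φ : V → ℝ, energy ((S : Set (Sym2 V)).indicator w) φ =
        ∑ f ∈ S, ENNReal.ofReal (w f * dsq φ f) := fun φ => by
      rw [energy_eq_sum (h0 w)]
      exact Finset.sum_congr rfl fun f hf => by rw [Set.indicator_of_mem (by simpa using hf)]
    refine le_antisymm (le_iInf fun φ => ?_) ?_
    · rw [← hE]; exact cond_le_energy _ φ.1.2
    · refine le_of_forall_gt fun r hr => ?_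
      obtain ⟨φ, hφ⟩ := iInf_lt_iff.1 hr
      have hc : Continuous fun φ : {φ : V → ℝ // dsq φ e = 1} =>
          ∑ f ∈ S, ENNReal.ofReal (w f * dsq φ.1 f) :=
        continuous_finsetSum _ fun f _ => ENNReal.continuous_ofReal.comp
          (continuous_const.mul ((continuous_dsq f).comp continuous_subtype_val))
      obtain ⟨ψ, hψ1, hψ2⟩ := hD.exists_mem_open (isOpen_lt hc continuous_const (g := fun _ => r))
        ⟨φ, by rw [hE] at hφ; exact hφ⟩
      exact iInf_lt_iff.2 ⟨⟨ψ, hψ1⟩, hψ2⟩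
  rw [this]
  refine Measurable.iInf fun φ => Finset.measurable_sum _ fun f _ => ?_
  exact ENNReal.measurable_ofReal.comp ((measurable_pi_apply f).mul_const _)

lemma measurable_cond [Countable V] (e : Sym2 V) :
    Measurable fun w : Sym2 V → ℝ => cond w e := by
  classical
  have : Nonempty (Sym2 V) := ⟨e⟩
  obtain ⟨g, hg⟩ := exists_surjective_nat (Sym2 V)
  refine measurable_of_tendsto_metrizable
    (fun n => measurable_cond_trunc ((Finset.range n).image g) e) (tendsto_pi_nhds.2 fun w => ?_)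
  refine tendsto_cond zero_le_one (fun f => ?_) (fun n f => ?_) e
  · obtain ⟨m, rfl⟩ := hg f
    refine tendsto_const_nhds.congr' ((eventually_gt_atTop m).mono fun n hn => ?_)
    exact (Set.indicator_of_mem (by simp; exact ⟨m, hn, rfl⟩) _).symm
  · rw [one_mul]
    by_cases hf : f ∈ (((Finset.range n).image g : Finset (Sym2 V)) : Set (Sym2 V))
    · rw [Set.indicator_of_mem hf]; exact le_max_left _ _
    · rw [Set.indicator_of_notMem hf]; exact le_max_right _ _

lemma measurable_drift [Countable V] (e : Sym2 V) :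
    Measurable fun w : Sym2 V → ℝ => drift w e :=
  (measurable_pi_apply e).div (measurable_cond e).ennreal_toReal

lemma dsq_map {V' : Type*} (σ : V → V') (φ : V' → ℝ) (e : Sym2 V) :
    dsq φ (e.map σ) = dsq (φ ∘ σ) e := by
  induction e using Sym2.ind with
  | h a b => simp

lemma energy_map {V' : Type*} (σ : V ≃ V') (w : Sym2 V' → ℝ) (φ : V' → ℝ) :
    energy w φ = energy (fun f => w (f.map σ)) (φ ∘ σ) := by
  unfold energy
  let τ : Sym2 V ≃ Sym2 V' :=
    ⟨Sym2.map σ, Sym2.map σ.symm, fun f => by simp [Sym2.map_map],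
      fun f => by simp [Sym2.map_map]⟩
  rw [← τ.tsum_eq]
  refine tsum_congr fun f => ?_
  rw [← dsq_map]; rfl

lemma cond_map {V' : Type*} (σ : V ≃ V') (w : Sym2 V' → ℝ) (e : Sym2 V) :
    cond w (e.map σ) = cond (fun f => w (f.map σ)) e := by
  refine le_antisymm (le_iInf fun φ => ?_) (le_iInf fun φ => ?_)
  · have h : (φ.1 ∘ σ.symm) ∘ σ = φ.1 := by ext v; simp
    have := cond_le_energy w (e := e.map σ) (φ := φ.1 ∘ σ.symm) (by rw [dsq_map, h, φ.2])
    rwa [energy_map σ, h] at this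
  · rw [energy_map σ]
    exact cond_le_energy _ (by rw [← dsq_map, φ.2])

lemma drift_map {V' : Type*} (σ : V ≃ V') (w : Sym2 V' → ℝ) (e : Sym2 V) :
    drift w (e.map σ) = drift (fun f => w (f.map σ)) e := by
  unfold drift; rw [cond_map]

lemma cond_ne_top {G : SimpleGraph V} (hG : ∀ v, (G.neighborSet v).Finite) {w : Sym2 V → ℝ}
    (hw : ∀ e, e ∉ G.edgeSet → w e = 0) {e : Sym2 V} (he : e ∈ G.edgeSet) : cond w e ≠ ⊤ := by
  classical
  induction e using Sym2.ind with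
  | h a b =>
  have hab : a ≠ b := G.ne_of_adj he
  refine ne_top_of_le_ne_top ?_ (cond_le_energy w (φ := fun v => if v = a then 1 else 0)
    (by simp [hab.symm]))
  unfold energy
  rw [tsum_eq_sum (s := (hG a).toFinset.image fun v => s(a, v))]
  · exact ENNReal.sum_ne_top.2 fun _ _ => ENNReal.ofReal_ne_top
  intro f hf
  induction f using Sym2.ind with
  | h x y =>
  by_cases hxy : s(x, y) ∈ G.edgeSet
  · have hx : x ≠ a := by
      rintro rfl
      exact hf (Finset.mem_image.2 ⟨y, by simpa using hxy, rfl⟩)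
    have hy : y ≠ a := by
      rintro rfl
      exact hf (Finset.mem_image.2 ⟨x, by simpa using (G.adj_symm hxy), Sym2.eq_swap⟩)
    simp [hx, hy]
  · simp [hw _ hxy]

end Vale.Agent.P143
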