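import Vale.Agent.P143.Cond

/-!
The Euler scheme for the probability flow on an arbitrary graph.
-/

open scoped ENNReal
open Filter Topology MeasureTheory

namespace Vale.Agent.P143

variable {V : Type*}

noncomputable def wt (G : SimpleGraph V) (τ x : Sym2 V → ℝ) : Sym2 V → ℝ :=
  G.edgeSet.indicator fun e => Real.exp (|x e| - |x e - τ e|)

noncomputable def vf (G : SimpleGraph V) (τ x : Sym2 V → ℝ) (e : Sym2 V) : ℝ :=
  drift (wt G τ x) e

noncomputable def eul (G : SimpleGraph V) (h : ℝ) (z : Sym2 V → ℝ) : ℕ → Sym2 V → ℝ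
  | 0 => z
  | i + 1 => fun e => eul G h z i e + h * vf G (fun _ => i * h) (eul G h z i) e

lemma wt_nonneg (G : SimpleGraph V) (τ x : Sym2 V → ℝ) (e : Sym2 V) : 0 ≤ wt G τ x e :=
  Set.indicator_nonneg (fun _ _ => (Real.exp_pos _).le) e

lemma wt_of_mem {G : SimpleGraph V} (τ x : Sym2 V → ℝ) {e : Sym2 V} (he : e ∈ G.edgeSet) :
    wt G τ x e = Real.exp (|x e| - |x e - τ e|) := Set.indicator_of_mem he _

lemma wt_of_notMem {G : SimpleGraph V} (τ x : Sym2 V → ℝ) {e : Sym2 V} (he : e ∉ G.edgeSet) :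
    wt G τ x e = 0 := Set.indicator_of_notMem he _

lemma vf_nonneg (G : SimpleGraph V) (τ x : Sym2 V → ℝ) (e : Sym2 V) : 0 ≤ vf G τ x e :=
  drift_nonneg (wt_nonneg G τ x e)

lemma vf_le_one (G : SimpleGraph V) (τ x : Sym2 V → ℝ) (e : Sym2 V) : vf G τ x e ≤ 1 :=
  drift_le_one (wt_nonneg G τ x e)

lemma wt_le {G : SimpleGraph V} {τ τ' x x' : Sym2 V → ℝ} {δ η : ℝ}
    (hx : ∀ e ∈ G.edgeSet, |x e - x' e| ≤ δ) (hτ : ∀ e ∈ G.edgeSet, |τ e - τ' e| ≤ η)
    (e : Sym2 V) : wt G τ x e ≤ Real.exp (2 * δ + η) * wt G τ' x' e := by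
  by_cases he : e ∈ G.edgeSet
  · rw [wt_of_mem _ _ he, wt_of_mem _ _ he, ← Real.exp_add, Real.exp_le_exp]
    have h1 := abs_sub_abs_le_abs_sub (x e) (x' e)
    have h2 := abs_sub_abs_le_abs_sub (x' e - τ' e) (x e - τ e)
    have h3 : |x' e - τ' e - (x e - τ e)| ≤ |x e - x' e| + |τ e - τ' e| := by
      rw [show x' e - τ' e - (x e - τ e) = -(x e - x' e) + (τ e - τ' e) by ring]
      exact (abs_add_le _ _).trans (by rw [abs_neg])
    linarith [hx e he, hτ e he]
  · rw [wt_of_notMem _ _ he, wt_of_notMem _ _ he, mul_zero]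

lemma vf_lip {G : SimpleGraph V} {τ τ' x x' : Sym2 V → ℝ} {δ η : ℝ} (hδ : 0 ≤ δ) (hη : 0 ≤ η)
    (hx : ∀ e ∈ G.edgeSet, |x e - x' e| ≤ δ) (hτ : ∀ e ∈ G.edgeSet, |τ e - τ' e| ≤ η)
    (e : Sym2 V) : |vf G τ x e - vf G τ' x' e| ≤ 4 * δ + 2 * η := by
  have := abs_drift_sub_le (wt_nonneg G τ x) (wt_nonneg G τ' x') (wt_le hx hτ)
    (wt_le (fun e he => by rw [abs_sub_comm]; exact hx e he)
      (fun e he => by rw [abs_sub_comm]; exact hτ e he)) (by positivity) e
  unfold vf; linarith

lemma eul_stab {G : SimpleGraph V} {h K : ℝ} (hh : 0 ≤ h) (hK : 0 ≤ K) {z : Sym2 V → ℝ}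
    {y : ℕ → Sym2 V → ℝ} (h0 : ∀ e ∈ G.edgeSet, y 0 e = z e)
    (hy : ∀ i, ∀ e ∈ G.edgeSet,
      |y (i + 1) e - y i e - h * vf G (fun _ => i * h) (y i) e| ≤ K * h ^ 2) (i : ℕ) :
    ∀ e ∈ G.edgeSet, |eul G h z i e - y i e| ≤ K * h * (1 + 5 * h) ^ i := by
  induction i with
  | zero => intro e he; simp [eul, h0 e he]; positivity
  | succ i ih =>
    intro e he
    have hp : 1 ≤ (1 + 5 * h) ^ i := one_le_pow₀ (by linarith)
    have hB : 0 ≤ K * h * (1 + 5 * h) ^ i := by positivity
    have h1 := vf_lip (τ := fun _ => i * h) (τ' := fun _ => i * h) hB le_rfl ih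
      (fun _ _ => by simp) e
    have h2 := hy i e he
    have h3 := ih e he
    have h4 : K * h ^ 2 ≤ h * (K * h * (1 + 5 * h) ^ i) := by
      have : 0 ≤ K * h ^ 2 := by positivity
      nlinarith
    have h5 : |h * vf G (fun _ => i * h) (eul G h z i) e - h * vf G (fun _ => i * h) (y i) e| ≤
        h * (4 * (K * h * (1 + 5 * h) ^ i)) := by
      rw [← mul_sub, abs_mul, abs_of_nonneg hh]
      exact mul_le_mul_of_nonneg_left (by linarith) hh
    simp only [eul]
    rw [pow_succ]
    rw [abs_le] at h2 h3 h5 ⊢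
    constructor <;> nlinarith [h2.1, h2.2, h3.1, h3.2, h5.1, h5.2]

lemma eul_incr (G : SimpleGraph V) {h : ℝ} (hh : 0 ≤ h) (z : Sym2 V → ℝ) (i j : ℕ)
    (e : Sym2 V) : 0 ≤ eul G h z (i + j) e - eul G h z i e ∧
      eul G h z (i + j) e - eul G h z i e ≤ j * h := by
  induction j with
  | zero => simp
  | succ j ih =>
    rw [← add_assoc]
    simp only [eul]
    have h1 := mul_nonneg hh (vf_nonneg G (fun _ => ((i + j : ℕ) : ℝ) * h) (eul G h z (i + j)) e)
    have h2 := mul_le_mul_of_nonneg_left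
      (vf_le_one G (fun _ => ((i + j : ℕ) : ℝ) * h) (eul G h z (i + j)) e) hh
    push_cast at h1 h2 ⊢
    constructor <;> linarith [ih.1, ih.2]

lemma eul_block (G : SimpleGraph V) {h : ℝ} (hh : 0 ≤ h) (z : Sym2 V → ℝ) (i M : ℕ)
    (e : Sym2 V) (j : ℕ) (hj : j ≤ M) :
    |eul G h z (i + j) e - eul G h z i e - j * h * vf G (fun _ => i * h) (eul G h z i) e| ≤
      j * h * (6 * (M * h)) := by
  induction j with
  | zero => simp
  | succ j ih =>
    have ih' := ih (by omega)
    have hjM : (j : ℝ) * h ≤ M * h :=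
      mul_le_mul_of_nonneg_right (by exact_mod_cast (by omega : j ≤ M)) hh
    have hM : 0 ≤ (M : ℝ) * h := by positivity
    have h1 := vf_lip (G := G) (τ := fun _ => ((i + j : ℕ) : ℝ) * h) (τ' := fun _ => i * h)
      (x := eul G h z (i + j)) (x' := eul G h z i) hM hM
      (fun f _ => by
        have := eul_incr G hh z i j f
        rw [abs_of_nonneg this.1]; linarith [this.2])
      (fun _ _ => by
        push_cast
        rw [show ((i : ℝ) + j) * h - i * h = j * h by ring, abs_of_nonneg (by positivity)]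
        exact hjM) e
    have h2 : |h * vf G (fun _ => ((i + j : ℕ) : ℝ) * h) (eul G h z (i + j)) e -
        h * vf G (fun _ => i * h) (eul G h z i) e| ≤ h * (6 * (M * h)) := by
      rw [← mul_sub, abs_mul, abs_of_nonneg hh]
      exact mul_le_mul_of_nonneg_left (by linarith) hh
    rw [← add_assoc]
    simp only [eul]
    rw [abs_le] at ih' h2 ⊢
    push_cast at h2 ⊢
    constructor <;> nlinarith [ih'.1, ih'.2, h2.1, h2.2]

lemma eul_fine (G : SimpleGraph V) {h : ℝ} (hh : 0 ≤ h) (z : Sym2 V → ℝ) (M i : ℕ) :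
    ∀ e ∈ G.edgeSet, |eul G (M * h) z i e - eul G h z (M * i) e| ≤
      6 * (M * h) * (1 + 5 * (M * h)) ^ i := by
  refine eul_stab (y := fun i => eul G h z (M * i)) (by positivity) (by norm_num)
    (fun _ _ => rfl) (fun i e _ => ?_) i
  have := eul_block G hh z (M * i) M e M le_rfl
  rw [show (fun _ : Sym2 V => ((M * i : ℕ) : ℝ) * h) = fun _ => i * (M * h) by
    funext _; push_cast; ring] at this
  simp only [mul_add, mul_one]
  calc _ ≤ _ := this
    _ = _ := by ring

lemma tendsto_eul {G : SimpleGraph V} (hG : ∀ v, (G.neighborSet v).Finite)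
    {H : ℕ → SimpleGraph V} (hle : ∀ n, H n ≤ G)
    (hev : ∀ e ∈ G.edgeSet, ∀ᶠ n in atTop, e ∈ (H n).edgeSet) {h : ℝ} (hh : 0 ≤ h)
    (z : Sym2 V → ℝ) (i : ℕ) :
    ∀ e, Tendsto (fun n => eul (H n) h z i e) atTop (𝓝 (eul G h z i e)) := by
  induction i with
  | zero => exact fun e => tendsto_const_nhds
  | succ i ih =>
    intro e
    simp only [eul]
    refine (ih e).add (Tendsto.const_mul _ ?_)
    by_cases he : e ∈ G.edgeSet
    swap
    · have h1 : ∀ n, e ∉ (H n).edgeSet := fun n h => he (SimpleGraph.edgeSet_mono (hle n) h)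
      simp only [vf, drift, wt_of_notMem _ _ he, wt_of_notMem _ _ (h1 _), zero_div]
      exact tendsto_const_nhds
    have ht : 0 ≤ (i : ℝ) * h := by positivity
    refine tendsto_drift (K := Real.exp (2 * (i * h))) (Real.exp_pos _).le (fun f => ?_)
      (fun n f => ?_) (by rw [wt_of_mem _ _ he]; exact Real.exp_pos _)
      (cond_ne_top hG (fun f hf => wt_of_notMem _ _ hf) he)
    · by_cases hf : f ∈ G.edgeSet
      · rw [wt_of_mem _ _ hf]
        refine Tendsto.congr' ((hev f hf).mono fun n hn => (wt_of_mem _ _ hn).symm) ?_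
        exact (Real.continuous_exp.tendsto _).comp
          ((ih f).abs.sub ((ih f).sub tendsto_const_nhds).abs)
      · have h1 : ∀ n, f ∉ (H n).edgeSet := fun n h => hf (SimpleGraph.edgeSet_mono (hle n) h)
        simp only [wt_of_notMem _ _ hf, wt_of_notMem _ _ (h1 _)]
        exact tendsto_const_nhds
    · by_cases hf : f ∈ (H n).edgeSet
      · rw [wt_of_mem _ _ hf, max_eq_left (wt_nonneg _ _ _ _),
          wt_of_mem _ _ (SimpleGraph.edgeSet_mono (hle n) hf), ← Real.exp_add, Real.exp_le_exp]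
        have h1 := abs_sub_abs_le_abs_sub (eul (H n) h z i f) (eul (H n) h z i f - i * h)
        have h2 := abs_sub_abs_le_abs_sub (eul G h z i f - i * h) (eul G h z i f)
        rw [sub_sub_cancel, abs_of_nonneg ht] at h1
        rw [sub_sub_cancel_left, abs_neg, abs_of_nonneg ht] at h2
        linarith
      · rw [wt_of_notMem _ _ hf]; positivity

lemma measurable_eul [Countable V] {X : Type*} [MeasurableSpace X] {G : X → SimpleGraph V}
    (hG : Measurable G) {z : X → Sym2 V → ℝ} (hz : Measurable z) (h : ℝ) (i : ℕ) :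
    Measurable fun x => eul (G x) h (z x) i := by
  induction i with
  | zero => exact hz
  | succ i ih =>
    refine measurable_pi_lambda _ fun e => ?_
    simp only [eul]
    refine ((measurable_pi_apply e).comp ih).add (Measurable.const_mul ?_ _)
    refine (measurable_drift e).comp (measurable_pi_lambda _ fun f => ?_)
    have hf : Measurable fun x => eul (G x) h (z x) i f := (measurable_pi_apply f).comp ih
    have hs : MeasurableSet {x | f ∈ (G x).edgeSet} :=
      measurableSet_setOfPred.2 ((measurable_set_mem f).comp (SimpleGraph.measurable_edgeSet.comp hG))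
    have : (fun x => wt (G x) (fun _ => i * h) (eul (G x) h (z x) i) f) =
        {x | f ∈ (G x).edgeSet}.indicator fun x =>
          Real.exp (|eul (G x) h (z x) i f| - |eul (G x) h (z x) i f - i * h|) := by
      funext x
      by_cases hx : f ∈ (G x).edgeSet
      · rw [wt_of_mem _ _ hx, Set.indicator_of_mem (by exact hx)]
      · rw [wt_of_notMem _ _ hx, Set.indicator_of_notMem (by exact hx)]
    rw [this]
    exact Measurable.indicator (by fun_prop) hs

lemma eul_map {V' : Type*} {G : SimpleGraph V} {G' : SimpleGraph V'} (φ : G ≃g G') (h : ℝ)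
    (z : Sym2 V' → ℝ) (i : ℕ) :
    ∀ e : Sym2 V, eul G' h z i (e.map φ) = eul G h (fun f => z (f.map φ)) i e := by
  induction i with
  | zero => exact fun _ => rfl
  | succ i ih =>
    intro e
    simp only [eul, ih, vf]
    congr 2
    refine (drift_map φ.toEquiv _ e).trans ?_
    congr 1
    funext f
    have hf : f.map φ ∈ G'.edgeSet ↔ f ∈ G.edgeSet := φ.map_mem_edgeSet_iff
    by_cases hx : f ∈ G.edgeSet
    · rw [wt_of_mem _ _ hx]
      refine (wt_of_mem _ _ (hf.2 hx)).trans ?_
      rw [ih]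
    · rw [wt_of_notMem _ _ hx]
      exact wt_of_notMem _ _ fun h => hx (hf.1 h)

def numSteps (k : ℕ) : ℕ := 16 * 256 ^ k

noncomputable def stepSize (k : ℕ) : ℝ := 1 / numSteps k

noncomputable def yk (G : SimpleGraph V) (z : Sym2 V → ℝ) (k : ℕ) : Sym2 V → ℝ :=
  eul G (stepSize k) z (k * numSteps k)

lemma numSteps_pos (k : ℕ) : (0 : ℝ) < numSteps k := by unfold numSteps; positivity

lemma stepSize_pos (k : ℕ) : 0 < stepSize k := one_div_pos.2 (numSteps_pos k)

lemma numSteps_mul (k : ℕ) : (numSteps k : ℝ) * stepSize k = 1 :=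
  mul_one_div_cancel (numSteps_pos k).ne'

lemma step_bound (k : ℕ) :
    8 * stepSize k * (1 + 5 * stepSize k) ^ (k * numSteps k) ≤ 1 / 2 := by
  have h0 := stepSize_pos k
  have h1 : (1 + 5 * stepSize k) ^ (k * numSteps k) ≤ 256 ^ k := by
    rw [mul_comm k, pow_mul]
    refine pow_le_pow_left₀ (by positivity) ?_ k
    calc (1 + 5 * stepSize k) ^ numSteps k ≤ Real.exp (5 * stepSize k) ^ numSteps k :=
          pow_le_pow_left₀ (by positivity) (by linarith [Real.add_one_le_exp (5 * stepSize k)]) _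
      _ = Real.exp 1 ^ 5 := by
          rw [← Real.exp_nat_mul, ← Real.exp_nat_mul]
          congr 1
          have := numSteps_mul k
          push_cast
          linarith
      _ ≤ 3 ^ 5 := pow_le_pow_left₀ (Real.exp_pos _).le
          (Real.exp_one_lt_d9.le.trans (by norm_num)) _
      _ ≤ 256 := by norm_num
  have h2 : stepSize k * 256 ^ k = 1 / 16 := by
    unfold stepSize numSteps
    push_cast
    field_simp
  calc _ ≤ 8 * stepSize k * 256 ^ k := mul_le_mul_of_nonneg_left h1 (by positivity)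
    _ = 1 / 2 := by rw [mul_assoc, h2]; norm_num

lemma yk_succ (G : SimpleGraph V) (z : Sym2 V → ℝ) (k : ℕ) {e : Sym2 V} (he : e ∈ G.edgeSet) :
    |(yk G z (k + 1) e - ((k + 1 : ℕ) : ℝ) / 2) - (yk G z k e - k / 2)| ≤ 1 := by
  have h0 := stepSize_pos (k + 1)
  have h1 := eul_fine G h0.le z 256 (k * numSteps k) e he
  have h2 : ((256 : ℕ) : ℝ) * stepSize (k + 1) = stepSize k := by
    unfold stepSize numSteps
    push_cast
    field_simp
    ring
  rw [h2] at h1
  have h3 := eul_incr G h0.le z (256 * (k * numSteps k)) (numSteps (k + 1)) e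
  rw [numSteps_mul, show 256 * (k * numSteps k) + numSteps (k + 1) = (k + 1) * numSteps (k + 1) by
    unfold numSteps; ring] at h3
  have h4 := step_bound k
  have h5 : 0 ≤ stepSize k * (1 + 5 * stepSize k) ^ (k * numSteps k) := by
    have := stepSize_pos k
    positivity
  unfold yk
  rw [abs_le] at h1 ⊢
  push_cast
  constructor <;> nlinarith [h1.1, h1.2, h3.1, h3.2]

end Vale.Agent.P143
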