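import Vale.Agent.P143.OneDim

/-!
An exact coordinate-by-coordinate transport scheme in finite volume.
-/

open scoped ENNReal
open MeasureTheory Set Filter Topology

namespace Vale.Agent.P143

variable {ι κ : Type*} [Fintype ι] [DecidableEq ι] (Ω : Finset κ) (m : κ → ι → Prop)

open Classical in
noncomputable def ind (T : κ) (f : ι) : ℝ := if m T f then 1 else 0

noncomputable def term (τ x : ι → ℝ) (T : κ) : ℝ := ∏ f, lap (x f - τ f * ind m T f)

noncomputable def dens (τ x : ι → ℝ) : ℝ := ∑ T ∈ Ω, term m τ x T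

noncomputable def rho (τ : ι → ℝ) : Measure (ι → ℝ) :=
  (Measure.pi fun _ : ι => (volume : Measure ℝ)).withDensity fun x => ENNReal.ofReal (dens Ω m τ x)

open Classical in
noncomputable def post (τ x : ι → ℝ) (e : ι) : ℝ :=
  (∑ T ∈ Ω.filter (fun T => m T e), term m τ x T) / dens Ω m τ x

noncomputable def term' (τ x : ι → ℝ) (e : ι) (T : κ) : ℝ :=
  ∏ f ∈ Finset.univ.erase e, lap (x f - τ f * ind m T f)

open Classical in
noncomputable def cA (τ x : ι → ℝ) (e : ι) : ℝ :=
  ∑ T ∈ Ω.filter (fun T => ¬ m T e), term' m τ x e T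

open Classical in
noncomputable def cB (τ x : ι → ℝ) (e : ι) : ℝ :=
  ∑ T ∈ Ω.filter (fun T => m T e), term' m τ x e T

lemma term'_pos (τ x : ι → ℝ) (e : ι) (T : κ) : 0 < term' m τ x e T :=
  Finset.prod_pos fun _ _ => lap_pos _

lemma cA_nonneg (τ x : ι → ℝ) (e : ι) : 0 ≤ cA Ω m τ x e :=
  Finset.sum_nonneg fun T _ => (term'_pos m τ x e T).le

lemma cB_nonneg (τ x : ι → ℝ) (e : ι) : 0 ≤ cB Ω m τ x e :=
  Finset.sum_nonneg fun T _ => (term'_pos m τ x e T).le

lemma cA_add_cB_pos (hΩ : Ω.Nonempty) (τ x : ι → ℝ) (e : ι) :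
    0 < cA Ω m τ x e + cB Ω m τ x e := by
  classical
  rw [cA, cB, add_comm, Finset.sum_filter_add_sum_filter_not]
  exact Finset.sum_pos (fun T _ => term'_pos m τ x e T) hΩ

lemma term'_update (τ x : ι → ℝ) (e : ι) (s y : ℝ) (T : κ) :
    term' m (Function.update τ e s) (Function.update x e y) e T = term' m τ x e T :=
  Finset.prod_congr rfl fun f hf => by
    rw [Function.update_of_ne (Finset.ne_of_mem_erase hf),
      Function.update_of_ne (Finset.ne_of_mem_erase hf)]

lemma cA_update (τ x : ι → ℝ) (e : ι) (s y : ℝ) :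
    cA Ω m (Function.update τ e s) (Function.update x e y) e = cA Ω m τ x e :=
  Finset.sum_congr rfl fun T _ => term'_update m τ x e s y T

lemma cB_update (τ x : ι → ℝ) (e : ι) (s y : ℝ) :
    cB Ω m (Function.update τ e s) (Function.update x e y) e = cB Ω m τ x e :=
  Finset.sum_congr rfl fun T _ => term'_update m τ x e s y T

lemma term_eq (τ x : ι → ℝ) (e : ι) (T : κ) :
    term m τ x T = term' m τ x e T * lap (x e - τ e * ind m T e) :=
  (Finset.prod_erase_mul _ _ (Finset.mem_univ e)).symm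

open Classical in
lemma sum_term_mem (τ x : ι → ℝ) (e : ι) :
    ∑ T ∈ Ω.filter (fun T => m T e), term m τ x T = cB Ω m τ x e * lap (x e - τ e) := by
  rw [cB, Finset.sum_mul]
  refine Finset.sum_congr rfl fun T hT => ?_
  rw [term_eq m τ x e, ind, if_pos (Finset.mem_filter.1 hT).2, mul_one]

lemma dens_eq (τ x : ι → ℝ) (e : ι) :
    dens Ω m τ x = cA Ω m τ x e * lap (x e) + cB Ω m τ x e * lap (x e - τ e) := by
  classical
  rw [dens, ← Finset.sum_filter_add_sum_filter_not Ω (fun T => m T e), add_comm,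
    ← sum_term_mem, cA, Finset.sum_mul]
  congr 1
  refine Finset.sum_congr rfl fun T hT => ?_
  rw [term_eq m τ x e, ind, if_neg (Finset.mem_filter.1 hT).2, mul_zero, sub_zero]

omit [DecidableEq ι] in
lemma measurable_dens (τ : ι → ℝ) : Measurable (dens Ω m τ) := by
  have := measurable_lap
  unfold dens term
  fun_prop

lemma measurable_term' (τ : ι → ℝ) (e : ι) (T : κ) : Measurable fun x => term' m τ x e T := by
  have := measurable_lap
  unfold term'
  fun_prop

lemma exists_update (hΩ : Ω.Nonempty) (τ : ι → ℝ) (e : ι) {h : ℝ} (hh : 0 ≤ h) :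
    ∃ S : (ι → ℝ) → (ι → ℝ), Measurable S ∧
      (rho Ω m τ).map S = rho Ω m (Function.update τ e (τ e + h)) ∧
      ∀ x, (∀ f, f ≠ e → S x f = x f) ∧ 0 ≤ S x e - x e ∧ S x e - x e ≤ h ∧
        |S x e - x e - h * post Ω m τ x e| ≤ 2 * h ^ 2 := by
  have hA := fun x => cA_nonneg Ω m τ x e
  have hB := fun x => cB_nonneg Ω m τ x e
  have hAB := fun x => cA_add_cB_pos Ω m hΩ τ x e
  have hS : Measurable fun x : ι → ℝ =>
      Function.update x e (tr (cA Ω m τ x e) (cB Ω m τ x e) (τ e) h (x e)) :=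
    measurable_update'.comp (measurable_id.prodMk (measurable_tr hA hB hAB
      (Finset.measurable_sum _ fun T _ => measurable_term' m τ e T)
      (Finset.measurable_sum _ fun T _ => measurable_term' m τ e T)
      (measurable_pi_apply e) (τ e) hh))
  refine ⟨_, hS, ?_, fun x => ⟨fun f hf => Function.update_of_ne hf _ _, ?_⟩⟩
  · refine Measure.ext_of_lintegral _ fun ψ hψ => ?_
    have hd : ∀ τ, Measurable fun x => ENNReal.ofReal (dens Ω m τ x) := fun τ =>
      ENNReal.measurable_ofReal.comp (measurable_dens Ω m τ)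
    rw [lintegral_map hψ hS, rho, rho, lintegral_withDensity_eq_lintegral_mul _ (hd _) hψ,
      lintegral_withDensity_eq_lintegral_mul _ (hd _) (g := fun x => ψ (Function.update x e
        (tr (cA Ω m τ x e) (cB Ω m τ x e) (τ e) h (x e)))) (hψ.comp hS)]
    refine lintegral_eq_of_lmarginal_eq {e} ((hd _).mul (hψ.comp hS)) ((hd _).mul hψ) ?_
    rw [lmarginal_singleton, lmarginal_singleton]
    funext x
    have h1 : ∀ y, cA Ω m τ (Function.update x e y) e = cA Ω m τ x e := fun y => by
      have := cA_update Ω m τ x e (τ e) y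
      rwa [Function.update_eq_self] at this
    have h2 : ∀ y, cB Ω m τ (Function.update x e y) e = cB Ω m τ x e := fun y => by
      have := cB_update Ω m τ x e (τ e) y
      rwa [Function.update_eq_self] at this
    simp only [Pi.mul_apply, dens_eq Ω m _ _ e, h1, h2, cA_update, cB_update,
      Function.update_self, Function.update_idem]
    exact lintegral_tr (hA x) (hB x) (hAB x) (τ e) hh (ψ := fun y => ψ (Function.update x e y))
      (hψ.comp (measurable_update x))
  · simp only [Function.update_self]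
    have h1 := (tr_spec (hA x) (hB x) (hAB x) (τ e) hh (x e)).1
    refine ⟨by linarith [h1.1], by linarith [h1.2], ?_⟩
    rw [post, sum_term_mem, dens_eq Ω m τ x e]
    exact tr_estimate (hA x) (hB x) (hAB x) (τ e) hh (x e)

/-- The Lipschitz property of the posterior mean in the supremum norm. -/
def PostLip : Prop := ∀ (τ τ' x x' : ι → ℝ) (δ η : ℝ), 0 ≤ δ → 0 ≤ η →
  (∀ f, |x f - x' f| ≤ δ) → (∀ f, |τ f - τ' f| ≤ η) →
  ∀ e, |post Ω m τ x e - post Ω m τ' x' e| ≤ 4 * δ + 2 * η

lemma exists_sweep_aux (hΩ : Ω.Nonempty) (hL : PostLip Ω m) (t : ℝ) {h : ℝ} (hh : 0 ≤ h)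
    (s : Finset ι) :
    ∃ S : (ι → ℝ) → (ι → ℝ), Measurable S ∧
      (rho Ω m fun _ => t).map S = rho Ω m (fun f => if f ∈ s then t + h else t) ∧
      ∀ x, (∀ f, f ∉ s → S x f = x f) ∧ (∀ f, |S x f - x f| ≤ h) ∧
        ∀ f ∈ s, |S x f - x f - h * post Ω m (fun _ => t) x f| ≤ 8 * h ^ 2 := by
  induction s using Finset.induction_on with
  | empty => exact ⟨id, measurable_id, by simp, fun x => by simp [hh]⟩
  | insert e s he ih =>
    obtain ⟨S, hS, hmap, hx⟩ := ih
    obtain ⟨R, hR, hRmap, hRx⟩ := exists_update Ω m hΩ (fun f => if f ∈ s then t + h else t) e hh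
    refine ⟨R ∘ S, hR.comp hS, ?_, fun x => ⟨fun f hf => ?_, fun f => ?_, fun f hf => ?_⟩⟩
    · rw [← Measure.map_map hR hS, hmap, hRmap]
      congr 1
      funext f
      by_cases hf : f = e
      · subst hf; simp [he]
      · simp [hf]
    · rw [Finset.mem_insert, not_or] at hf
      rw [Function.comp, (hRx _).1 f hf.1, (hx x).1 f hf.2]
    · by_cases hf : f = e
      · subst hf
        obtain ⟨-, h1, h2, -⟩ := hRx (S x)
        rw [(hx x).1 f he] at h1 h2
        rw [Function.comp, abs_of_nonneg h1]; exact h2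
      · rw [Function.comp, (hRx _).1 f hf]; exact (hx x).2.1 f
    · by_cases hfe : f = e
      · subst hfe
        obtain ⟨-, -, -, h1⟩ := hRx (S x)
        rw [(hx x).1 f he] at h1
        have h2 := hL (fun f => if f ∈ s then t + h else t) (fun _ => t) (S x) x h h hh hh
          (hx x).2.1 (fun g => by by_cases hg : g ∈ s <;> simp [hg, hh, abs_of_nonneg]) f
        have h3 : |h * post Ω m (fun f => if f ∈ s then t + h else t) (S x) f -
            h * post Ω m (fun _ => t) x f| ≤ h * (6 * h) := by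
          rw [← mul_sub, abs_mul, abs_of_nonneg hh]
          exact mul_le_mul_of_nonneg_left (by linarith) hh
        rw [Function.comp]
        rw [abs_le] at h1 h3 ⊢
        constructor <;> nlinarith [h1.1, h1.2, h3.1, h3.2]
      · rw [Function.comp, (hRx _).1 f hfe]
        exact (hx x).2.2 f ((Finset.mem_insert.1 hf).resolve_left hfe)

lemma exists_exact (hΩ : Ω.Nonempty) (hL : PostLip Ω m) {h : ℝ} (hh : 0 ≤ h) :
    ∃ Ψ : ℕ → (ι → ℝ) → (ι → ℝ), (∀ i, Measurable (Ψ i)) ∧ Ψ 0 = id ∧
      (∀ i : ℕ, (rho Ω m fun _ => 0).map (Ψ i) = rho Ω m fun _ => i * h) ∧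
      ∀ i x f, |Ψ (i + 1) x f - Ψ i x f - h * post Ω m (fun _ => i * h) (Ψ i x) f| ≤
        8 * h ^ 2 := by
  choose S hS hmap hx using fun i : ℕ => exists_sweep_aux Ω m hΩ hL (i * h) hh Finset.univ
  let Ψ : ℕ → (ι → ℝ) → (ι → ℝ) := fun i => Nat.rec id (fun j R => S j ∘ R) i
  have hm : ∀ i, Measurable (Ψ i) := fun i => by
    induction i with
    | zero => exact measurable_id
    | succ i ih => exact (hS i).comp ih
  refine ⟨Ψ, hm, rfl, fun i => ?_, fun i x f => (hx i (Ψ i x)).2.2 f (Finset.mem_univ f)⟩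
  induction i with
  | zero => simp [Ψ]
  | succ i ih =>
    change Measure.map (S i ∘ Ψ i) _ = _
    rw [← Measure.map_map (hS i) (hm i), ih, hmap]
    congr 1
    funext f
    simp [add_mul]

omit [DecidableEq ι] in
lemma rho_apply (τ : ι → ℝ) {B : Set (ι → ℝ)} (hB : MeasurableSet B) :
    rho Ω m τ B = ∑ T ∈ Ω, (Measure.pi fun _ : ι => nu)
      {z | (fun f => z f + τ f * ind m T f) ∈ B} := by
  have hl := measurable_lap
  have h1 : ∀ T, (Measure.pi fun _ : ι => nu) {z | (fun f => z f + τ f * ind m T f) ∈ B} =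
      ∫⁻ x in B, ENNReal.ofReal (term m τ x T) ∂(Measure.pi fun _ : ι => (volume : Measure ℝ)) := by
    intro T
    have : ∀ f, IsProbabilityMeasure (nu.map fun y => y + τ f * ind m T f) := fun f =>
      Measure.isProbabilityMeasure_map (by fun_prop)
    have h2 := Measure.pi_map_pi (μ := fun _ : ι => nu)
      (f := fun f y => y + τ f * ind m T f) (fun f => by fun_prop)
    simp only [nu_map_add] at h2
    rw [pi_withDensity (g := fun f y => lap (y - τ f * ind m T f))
      (fun f => integrable_lap.comp_sub_right _) (fun _ _ => (lap_pos _).le)] at h2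
    unfold term
    rw [← withDensity_apply _ hB, ← h2, Measure.map_apply (by fun_prop) hB]
    rfl
  simp only [h1]
  rw [rho, withDensity_apply _ hB, ← lintegral_finsetSum]
  · refine lintegral_congr fun x => ?_
    rw [dens, ENNReal.ofReal_sum_of_nonneg]
    exact fun T _ => Finset.prod_nonneg fun _ _ => (lap_pos _).le
  · intro T _
    unfold term
    fun_prop

/-- The conclusion in the form in which it is used. -/
lemma exists_exact' (hΩ : Ω.Nonempty) (hL : PostLip Ω m) {h : ℝ} (hh : 0 ≤ h) :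
    ∃ Ψ : ℕ → (ι → ℝ) → (ι → ℝ), (∀ i, Measurable (Ψ i)) ∧ Ψ 0 = id ∧
      (∀ (i : ℕ) (B : Set (ι → ℝ)), MeasurableSet B →
        (Ω.card : ℝ≥0∞) * (Measure.pi fun _ : ι => nu) (Ψ i ⁻¹' B) =
          ∑ T ∈ Ω, (Measure.pi fun _ : ι => nu) {z | (fun f => z f + i * h * ind m T f) ∈ B}) ∧
      ∀ i x f, |Ψ (i + 1) x f - Ψ i x f - h * post Ω m (fun _ => i * h) (Ψ i x) f| ≤
        8 * h ^ 2 := by
  obtain ⟨Ψ, h1, h2, h3, h4⟩ := exists_exact Ω m hΩ hL hh
  refine ⟨Ψ, h1, h2, fun i B hB => ?_, h4⟩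
  rw [← rho_apply Ω m (fun _ => i * h) hB, ← h3, Measure.map_apply (h1 i) hB,
    rho_apply Ω m _ (h1 i hB)]
  simp only [zero_mul, add_zero, Finset.sum_const, nsmul_eq_mul]
  rfl

end Vale.Agent.P143
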