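import Vale.Agent.P143.Cond

/-!
Kirchhoff's formula: on a finite connected network, `drift w e` is the probability that the
weighted random spanning tree contains `e`.
-/

open scoped ENNReal
open SimpleGraph

namespace Vale.Agent.P143

variable {V : Type*}

/-- Reachability through the edge set `S`. -/
def Rch (S : Finset (Sym2 V)) (u v : V) : Prop := (fromEdgeSet (S : Set (Sym2 V))).Reachable u v

def Acy (S : Finset (Sym2 V)) : Prop := (fromEdgeSet (S : Set (Sym2 V))).IsAcyclic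

def Tr (W : Set V) (T : Finset (Sym2 V)) : Prop := Acy T ∧ ∀ u ∈ W, ∀ v ∈ W, Rch T u v

def Fo (W : Set V) (a b : V) (S : Finset (Sym2 V)) : Prop :=
  Acy S ∧ ¬ Rch S a b ∧ ∀ x ∈ W, Rch S a x ∨ Rch S b x

lemma Rch.refl (S : Finset (Sym2 V)) (u : V) : Rch S u u := Reachable.refl u
lemma Rch.symm {S : Finset (Sym2 V)} {u v : V} (h : Rch S u v) : Rch S v u := Reachable.symm h
lemma Rch.trans {S : Finset (Sym2 V)} {u v x : V} (h : Rch S u v) (h' : Rch S v x) :
    Rch S u x := Reachable.trans h h'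
lemma Rch.mono {S T : Finset (Sym2 V)} (hST : S ⊆ T) {u v : V} (h : Rch S u v) : Rch T u v :=
  Reachable.mono (fromEdgeSet_mono (by exact_mod_cast hST)) h

lemma Rch.of_mem {S : Finset (Sym2 V)} {u v : V} (h : s(u, v) ∈ S) : Rch S u v := by
  by_cases huv : u = v
  · subst huv; exact Rch.refl S u
  · exact Adj.reachable (by simp [h, huv])

lemma Rch.ind {S : Finset (Sym2 V)} {u : V} {P : V → Prop} (h0 : P u)
    (hs : ∀ x y, s(x, y) ∈ S → x ≠ y → P x → P y) {v : V} (h : Rch S u v) : P v := by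
  have h' := (reachable_iff_reflTransGen u v).1 h
  induction h' with
  | refl => exact h0
  | tail h1 h2 ih =>
    rw [fromEdgeSet_adj] at h2
    exact hs _ _ (by exact_mod_cast h2.1) h2.2 (ih ((reachable_iff_reflTransGen _ _).2 h1))

lemma Acy.anti {S T : Finset (Sym2 V)} (hST : S ⊆ T) (h : Acy T) : Acy S :=
  IsAcyclic.anti (fromEdgeSet_mono (by exact_mod_cast hST)) h

variable [DecidableEq V]

lemma Acy.not_rch {T : Finset (Sym2 V)} (h : Acy T) {x y : V} (hxy : x ≠ y)
    (hm : s(x, y) ∈ T) : ¬ Rch (T.erase s(x, y)) x y := by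
  have h1 := isAcyclic_iff_forall_isBridge.1 h (e := s(x, y)) (by simp [hm, hxy])
  rw [isBridge_iff] at h1
  intro h2
  refine h1 (Reachable.mono ?_ h2)
  intro u v huv
  simp only [fromEdgeSet_adj, Finset.coe_erase, Set.mem_sdiff, Finset.mem_coe,
    Set.mem_singleton_iff] at huv
  simp only [deleteEdges_adj, fromEdgeSet_adj, Finset.mem_coe, Set.mem_singleton_iff]
  exact ⟨⟨huv.1.1, huv.2⟩, huv.1.2⟩

lemma Acy.insert {S : Finset (Sym2 V)} (h : Acy S) {x y : V} (hxy : ¬ Rch S x y) :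
    Acy (insert s(x, y) S) := by
  have h1 := IsAcyclic.sup_edge_of_not_reachable hxy h
  refine IsAcyclic.anti ?_ h1
  intro u v huv
  simp only [fromEdgeSet_adj, Finset.coe_insert, Set.mem_insert_iff, Finset.mem_coe] at huv
  simp only [sup_adj, fromEdgeSet_adj, Finset.mem_coe, edge_adj]
  rcases huv with ⟨h2 | h2, h3⟩
  · right
    refine ⟨?_, h3⟩
    simpa using h2
  · exact Or.inl ⟨h2, h3⟩

lemma Rch.erase {T : Finset (Sym2 V)} {u x y : V} (h : Rch T u x) :
    Rch (T.erase s(x, y)) u x ∨ Rch (T.erase s(x, y)) u y := by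
  have : Rch (T.erase s(x, y)) u x ∨ (Rch (T.erase s(x, y)) u x ∨ Rch (T.erase s(x, y)) u y) := by
    refine Rch.ind (P := fun z => Rch (T.erase s(x, y)) u z ∨
      (Rch (T.erase s(x, y)) u x ∨ Rch (T.erase s(x, y)) u y)) (Or.inl (Rch.refl _ u)) ?_ h
    rintro p q hpq - (hp | hp)
    · by_cases he : s(p, q) = s(x, y)
      · rcases Sym2.eq_iff.1 he with ⟨rfl, rfl⟩ | ⟨rfl, rfl⟩
        · exact Or.inr (Or.inl hp)
        · exact Or.inr (Or.inr hp)
      · exact Or.inl (hp.trans (Rch.of_mem (Finset.mem_erase.2 ⟨he, hpq⟩)))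
    · exact Or.inr hp
  tauto

open Classical in
noncomputable def trees (W : Set V) (F : Finset (Sym2 V)) : Finset (Finset (Sym2 V)) :=
  F.powerset.filter (Tr W)

open Classical in
noncomputable def forests (W : Set V) (F : Finset (Sym2 V)) (a b : V) :
    Finset (Finset (Sym2 V)) :=
  F.powerset.filter (Fo W a b)

omit [DecidableEq V] in
lemma mem_trees {W : Set V} {F T : Finset (Sym2 V)} : T ∈ trees W F ↔ T ⊆ F ∧ Tr W T := by
  simp [trees]

omit [DecidableEq V] in
lemma mem_forests {W : Set V} {F S : Finset (Sym2 V)} {a b : V} :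
    S ∈ forests W F a b ↔ S ⊆ F ∧ Fo W a b S := by
  simp [forests]

open Classical in
lemma sum_trees_eq {W : Set V} {F : Finset (Sym2 V)} {a b x y : V} (ha : a ∈ W) (hb : b ∈ W)
    (hx : x ∈ W) (hy : y ∈ W) (hxy : x ≠ y) (hf : s(x, y) ∈ F) (w : Sym2 V → ℝ)
    (h : Finset (Sym2 V) → ℝ) :
    ∑ T ∈ (trees W F).filter (fun T => s(x, y) ∈ T ∧ ¬ Rch (T.erase s(x, y)) a b),
        (∏ f ∈ T, w f) * h (T.erase s(x, y)) =
      ∑ S ∈ (forests W F a b).filter (fun S => ¬ (Rch S a x ↔ Rch S a y)),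
        (∏ f ∈ S, w f) * w s(x, y) * h S := by
  refine Finset.sum_nbij' (fun T => T.erase s(x, y)) (fun S => insert s(x, y) S) ?_ ?_ ?_ ?_ ?_
  · intro T hT
    simp only [Finset.mem_filter, mem_trees, mem_forests] at hT ⊢
    obtain ⟨⟨hTF, hA, hC⟩, hm, hab⟩ := hT
    have h1 := hA.not_rch hxy hm
    have h2 := (hC a ha x hx).erase (y := y)
    have h3 := (hC b hb x hx).erase (y := y)
    refine ⟨⟨(Finset.erase_subset _ _).trans hTF, hA.anti (Finset.erase_subset _ _), hab,
      fun z hz => ?_⟩, fun hiff => ?_⟩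
    · rcases (hC z hz x hx).erase (y := y) with h4 | h4
      · rcases h2 with h2 | h2
        · exact Or.inl (h2.trans h4.symm)
        · rcases h3 with h3 | h3
          · exact Or.inr (h3.trans h4.symm)
          · exact absurd (h2.trans h3.symm) hab
      · rcases h2 with h2 | h2
        · rcases h3 with h3 | h3
          · exact absurd (h2.trans h3.symm) hab
          · exact Or.inr (h3.trans h4.symm)
        · exact Or.inl (h2.trans h4.symm)
    · rcases h2 with h2 | h2
      · exact h1 (h2.symm.trans (hiff.1 h2))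
      · exact h1 ((hiff.2 h2).symm.trans h2)
  · intro S hS
    simp only [Finset.mem_filter, mem_trees, mem_forests] at hS ⊢
    obtain ⟨⟨hSF, hA, hab, hC⟩, hc⟩ := hS
    have h1 : ¬ Rch S x y := fun h => hc ⟨fun h' => h'.trans h, fun h' => h'.trans h.symm⟩
    have h2 : s(x, y) ∉ S := fun h => h1 (Rch.of_mem h)
    have h3 : Rch (insert s(x, y) S) x y := Rch.of_mem (Finset.mem_insert_self _ _)
    have hsub : S ⊆ insert s(x, y) S := Finset.subset_insert _ _
    have h4 : Rch (insert s(x, y) S) a b := by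
      by_cases hax : Rch S a x
      · have hay : ¬ Rch S a y := fun h => hc ⟨fun _ => h, fun _ => hax⟩
        exact ((hax.mono hsub).trans h3).trans (((hC y hy).resolve_left hay).mono hsub).symm
      · have hay : Rch S a y := by tauto
        exact ((hay.mono hsub).trans h3.symm).trans
          (((hC x hx).resolve_left hax).mono hsub).symm
    have h5 : ∀ z ∈ W, Rch (insert s(x, y) S) a z := fun z hz =>
      (hC z hz).elim (fun h => h.mono hsub) fun h => h4.trans (h.mono hsub)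
    refine ⟨⟨Finset.insert_subset hf hSF, hA.insert h1,
      fun u hu v hv => (h5 u hu).symm.trans (h5 v hv)⟩, Finset.mem_insert_self _ _, ?_⟩
    rwa [Finset.erase_insert h2]
  · intro T hT
    simp only [Finset.mem_filter] at hT
    exact Finset.insert_erase hT.2.1
  · intro S hS
    simp only [Finset.mem_filter] at hS
    refine Finset.erase_insert fun h => hS.2 ?_
    have := Rch.of_mem h
    exact ⟨fun h' => h'.trans this, fun h' => h'.trans this.symm⟩
  · intro T hT
    simp only [Finset.mem_filter] at hT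
    rw [Finset.prod_erase_mul _ _ hT.2.1]

noncomputable def dd (φ ψ : V → ℝ) : Sym2 V → ℝ :=
  Sym2.lift ⟨fun x y => (φ x - φ y) * (ψ x - ψ y), fun x y => by ring⟩

omit [DecidableEq V] in
@[simp] lemma dd_mk (φ ψ : V → ℝ) (x y : V) :
    dd φ ψ s(x, y) = (φ x - φ y) * (ψ x - ψ y) := rfl

open Classical in
noncomputable def pot (S : Finset (Sym2 V)) (a : V) (x : V) : ℝ := if Rch S a x then 1 else 0

open Classical in
noncomputable def side (ψ : V → ℝ) (S : Finset (Sym2 V)) (u : V) : Sym2 V → ℝ :=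
  Sym2.lift ⟨fun x y => (if Rch S u x then ψ x else 0) + (if Rch S u y then ψ y else 0),
    fun _ _ => add_comm _ _⟩

lemma side_const {T : Finset (Sym2 V)} (hA : Acy T) (ψ : V → ℝ) {u v : V} (h : Rch T u v) :
    ∑ f ∈ T, side ψ (T.erase f) u f - ψ u = ∑ f ∈ T, side ψ (T.erase f) v f - ψ v := by
  refine Rch.ind (P := fun v => ∑ f ∈ T, side ψ (T.erase f) u f - ψ u =
    ∑ f ∈ T, side ψ (T.erase f) v f - ψ v) rfl ?_ h
  intro x y hxy hne hP
  rw [hP, ← Finset.add_sum_erase _ _ hxy, ← Finset.add_sum_erase _ _ hxy]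
  have h1 := hA.not_rch hne hxy
  have h2 : ¬ Rch (T.erase s(x, y)) y x := fun h => h1 h.symm
  have h3 : side ψ (T.erase s(x, y)) x s(x, y) = ψ x := by
    simp [side, h1, Rch.refl]
  have h4 : side ψ (T.erase s(x, y)) y s(x, y) = ψ y := by
    simp [side, h2, Rch.refl]
  have h5 : ∑ f ∈ T.erase s(x, y), side ψ (T.erase f) x f =
      ∑ f ∈ T.erase s(x, y), side ψ (T.erase f) y f := by
    refine Finset.sum_congr rfl fun f hf => ?_
    have h6 : Rch (T.erase f) x y :=
      Rch.of_mem (Finset.mem_erase.2 ⟨(Finset.mem_erase.1 hf).1.symm, hxy⟩)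
    have h7 : ∀ z, Rch (T.erase f) x z ↔ Rch (T.erase f) y z := fun z =>
      ⟨fun h => h6.symm.trans h, fun h => h6.trans h⟩
    induction f using Sym2.ind with
    | h p q =>
      simp only [side, Sym2.lift_mk]
      rw [propext (h7 p), propext (h7 q)]
  rw [h3, h4, h5]; ring

open Classical in
lemma tree_identity {W : Set V} {T : Finset (Sym2 V)} (hT : Tr W T)
    (hW : ∀ x y, s(x, y) ∈ T → x ∈ W ∧ x ≠ y) {a b : V} (ha : a ∈ W) (hb : b ∈ W)
    (ψ : V → ℝ) :
    ∑ f ∈ T, (if ¬ Rch (T.erase f) a b then dd (pot (T.erase f) a) ψ f else 0) = ψ a - ψ b := by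
  have h := side_const hT.1 ψ (hT.2 a ha b hb)
  have h2 : ∑ f ∈ T, (if ¬ Rch (T.erase f) a b then dd (pot (T.erase f) a) ψ f else 0) =
      ∑ f ∈ T, (side ψ (T.erase f) a f - side ψ (T.erase f) b f) := by
    refine Finset.sum_congr rfl fun f hf => ?_
    induction f using Sym2.ind with
    | h x y =>
    obtain ⟨hx, hxy⟩ := hW x y hf
    have h1 := hT.1.not_rch hxy hf
    have h3 := (hT.2 a ha x hx).erase (y := y)
    have h4 := (hT.2 b hb x hx).erase (y := y)
    have h5 : ∀ u, Rch (T.erase s(x, y)) u x → ¬ Rch (T.erase s(x, y)) u y :=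
      fun u h h' => h1 (h.symm.trans h')
    have h6 : ∀ u, Rch (T.erase s(x, y)) u y → ¬ Rch (T.erase s(x, y)) u x :=
      fun u h h' => h1 (h'.symm.trans h)
    rcases h3 with h3 | h3 <;> rcases h4 with h4 | h4
    · simp [side, h3, h4, h5 _ h3, h5 _ h4, h3.trans h4.symm]
    · have : ¬ Rch (T.erase s(x, y)) a b := fun h => h5 _ h3 (h.trans h4)
      simp [side, pot, h3, h4, h5 _ h3, h6 _ h4, this]
    · have : ¬ Rch (T.erase s(x, y)) a b := fun h => h6 _ h3 (h.trans h4)
      simp [side, pot, h3, h4, h6 _ h3, h5 _ h4, this]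
    · simp [side, h3, h4, h6 _ h3, h6 _ h4, h3.trans h4.symm]
  rw [h2, Finset.sum_sub_distrib]; linarith

lemma key_identity {W : Set V} {F : Finset (Sym2 V)}
    (hW : ∀ x y, s(x, y) ∈ F → x ∈ W ∧ x ≠ y) {a b : V} (ha : a ∈ W) (hb : b ∈ W)
    (w : Sym2 V → ℝ) (ψ : V → ℝ) :
    ∑ f ∈ F, ∑ S ∈ forests W F a b, (∏ g ∈ S, w g) * w f * dd (pot S a) ψ f =
      (∑ T ∈ trees W F, ∏ g ∈ T, w g) * (ψ a - ψ b) := by
  classical
  rw [Finset.sum_mul (trees W F)]
  have h1 : ∀ T ∈ trees W F, (∏ g ∈ T, w g) * (ψ a - ψ b) =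
      ∑ f ∈ F, if f ∈ T ∧ ¬ Rch (T.erase f) a b then
        (∏ g ∈ T, w g) * dd (pot (T.erase f) a) ψ f else 0 := by
    intro T hT
    rw [mem_trees] at hT
    rw [← tree_identity hT.2 (fun x y h => hW x y (hT.1 h)) ha hb ψ, Finset.mul_sum,
      ← Finset.sum_subset hT.1 (fun f _ hf => by simp [hf])]
    refine Finset.sum_congr rfl fun f hf => ?_
    by_cases h : Rch (T.erase f) a b <;> simp [h, hf]
  rw [Finset.sum_congr rfl h1, Finset.sum_comm (s := trees W F)]
  refine Finset.sum_congr rfl fun f hf => ?_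
  induction f using Sym2.ind with
  | h x y =>
  obtain ⟨hx, hxy⟩ := hW x y hf
  have hy := (hW y x (by rwa [Sym2.eq_swap])).1
  rw [← Finset.sum_filter]
  have := sum_trees_eq ha hb hx hy hxy hf w (fun S => dd (pot S a) ψ s(x, y))
  rw [Finset.sum_filter (s := forests W F a b)] at this
  convert this.symm using 2 with S
  by_cases h : Rch S a x ↔ Rch S a y
  · simp [pot, h]
  · simp only [h, not_false_eq_true, if_true]

lemma sum_trees_mem {W : Set V} {F : Finset (Sym2 V)}
    (hW : ∀ x y, s(x, y) ∈ F → x ∈ W ∧ x ≠ y) {a b : V} (he : s(a, b) ∈ F) (w : Sym2 V → ℝ) :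
    ∑ T ∈ (trees W F).filter (fun T => s(a, b) ∈ T), ∏ g ∈ T, w g =
      (∑ S ∈ forests W F a b, ∏ g ∈ S, w g) * w s(a, b) := by
  classical
  obtain ⟨ha, hab⟩ := hW a b he
  have hb := (hW b a (by rwa [Sym2.eq_swap])).1
  have := sum_trees_eq ha hb ha hb hab he w (fun _ => 1)
  simp only [mul_one] at this
  rw [Finset.sum_mul]
  convert this using 2
  · refine Finset.filter_congr fun T hT => ?_
    exact ⟨fun h => ⟨h, (mem_trees.1 hT).2.1.not_rch hab h⟩, fun h => h.1⟩
  · refine (Finset.filter_true_of_mem fun S hS h => ?_).symm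
    exact (mem_forests.1 hS).2.2.1 (h.1 (Rch.refl _ _))

omit [DecidableEq V] in
lemma dsq_ge (φ ψ : V → ℝ) (s : ℝ) (f : Sym2 V) :
    2 * s * dd φ ψ f - s ^ 2 * dd φ φ f ≤ dsq ψ f := by
  induction f using Sym2.ind with
  | h x y =>
    simp only [dd_mk, dsq_mk]
    nlinarith [sq_nonneg ((ψ x - ψ y) - s * (φ x - φ y))]

omit [DecidableEq V] in
lemma dsq_eq_dd (φ : V → ℝ) (f : Sym2 V) : dsq φ f = dd φ φ f := by
  induction f using Sym2.ind with
  | h x y => simp only [dd_mk, dsq_mk, sq]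

omit [DecidableEq V] in
lemma cond_eq_of_harmonic {F : Finset (Sym2 V)} {w : Sym2 V → ℝ} (hw : ∀ f, 0 ≤ w f)
    (hw0 : ∀ f ∉ F, w f = 0) {a b : V} {φ : V → ℝ} {c : ℝ} (ha : φ a = 1) (hb : φ b = 0)
    (h : ∀ ψ : V → ℝ, ∑ f ∈ F, w f * dd φ ψ f = c * (ψ a - ψ b)) :
    cond w s(a, b) = ENNReal.ofReal c := by
  have hE : ∀ ψ, energy w ψ = ENNReal.ofReal (∑ f ∈ F, w f * dsq ψ f) := fun ψ => by
    rw [energy_eq_sum hw0, ENNReal.ofReal_sum_of_nonneg]
    exact fun f _ => mul_nonneg (hw f) (dsq_nonneg ψ f)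
  have h1 := h φ
  rw [ha, hb, sub_zero, mul_one] at h1
  refine le_antisymm ?_ (le_iInf fun ψ => ?_)
  · refine (cond_le_energy w (φ := φ) (by simp [ha, hb])).trans ?_
    rw [hE]; simp only [dsq_eq_dd, h1, le_refl]
  · rw [hE]
    refine ENNReal.ofReal_le_ofReal ?_
    have h2 := ψ.2
    rw [dsq_mk] at h2
    calc c = 2 * (ψ.1 a - ψ.1 b) * (c * (ψ.1 a - ψ.1 b)) - (ψ.1 a - ψ.1 b) ^ 2 * c := by
          linear_combination (-c) * h2
      _ = ∑ f ∈ F, w f * (2 * (ψ.1 a - ψ.1 b) * dd φ ψ.1 f -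
            (ψ.1 a - ψ.1 b) ^ 2 * dd φ φ f) := by
          rw [← h ψ.1]
          conv_lhs => rw [← h1]
          rw [Finset.mul_sum, Finset.mul_sum, ← Finset.sum_sub_distrib]
          exact Finset.sum_congr rfl fun f _ => by ring
      _ ≤ _ := Finset.sum_le_sum fun f _ => mul_le_mul_of_nonneg_left (dsq_ge _ _ _ f) (hw f)

theorem kirchhoff {W : Set V} {F : Finset (Sym2 V)}
    (hW : ∀ x y, s(x, y) ∈ F → x ∈ W ∧ x ≠ y) (hne : (trees W F).Nonempty) {w : Sym2 V → ℝ}
    (hw : ∀ f ∈ F, 0 < w f) (hw0 : ∀ f ∉ F, w f = 0) {e : Sym2 V} (he : e ∈ F) :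
    drift w e = (∑ T ∈ (trees W F).filter (fun T => e ∈ T), ∏ g ∈ T, w g) /
      ∑ T ∈ trees W F, ∏ g ∈ T, w g := by
  induction e using Sym2.ind with
  | h a b =>
  obtain ⟨ha, hab⟩ := hW a b he
  have hb := (hW b a (by rwa [Sym2.eq_swap])).1
  have hw' : ∀ f, 0 ≤ w f := fun f => by
    by_cases hf : f ∈ F
    · exact (hw f hf).le
    · exact (hw0 f hf).ge
  set Z := ∑ T ∈ trees W F, ∏ g ∈ T, w g with hZ
  set Y := ∑ S ∈ forests W F a b, ∏ g ∈ S, w g with hY
  have hZ0 : 0 < Z := Finset.sum_pos (fun T hT => Finset.prod_pos fun g hg =>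
    hw g ((mem_trees.1 hT).1 hg)) hne
  have hFne : (forests W F a b).Nonempty := by
    rw [Finset.nonempty_iff_ne_empty]
    intro h0
    have := key_identity hW ha hb w (fun v => if v = a then 1 else 0)
    simp only [h0, Finset.sum_empty, Finset.sum_const_zero, if_true, hab.symm, if_false,
      sub_zero, mul_one] at this
    exact hZ0.ne this
  have hY0 : 0 < Y := Finset.sum_pos (fun S hS => Finset.prod_pos fun g hg =>
    hw g ((mem_forests.1 hS).1 hg)) hFne
  have hc : cond w s(a, b) = ENNReal.ofReal (Z / Y) := by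
    refine cond_eq_of_harmonic hw' hw0
      (φ := fun x => (∑ S ∈ forests W F a b, (∏ g ∈ S, w g) * pot S a x) / Y) ?_ ?_ fun ψ => ?_
    · simp only [pot, Rch.refl, if_true, mul_one]; exact div_self hY0.ne'
    · rw [Finset.sum_eq_zero fun S hS => ?_, zero_div]
      simp [pot, (mem_forests.1 hS).2.2.1]
    · rw [div_mul_eq_mul_div, ← key_identity hW ha hb w ψ, Finset.sum_div]
      refine Finset.sum_congr rfl fun f _ => ?_
      induction f using Sym2.ind with
      | h x y =>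
      simp only [dd_mk]
      rw [← sub_div, ← Finset.sum_sub_distrib, div_mul_eq_mul_div, Finset.sum_mul,
        mul_div_assoc', Finset.mul_sum]
      congr 1
      exact Finset.sum_congr rfl fun S _ => by ring
  rw [sum_trees_mem hW he, ← hY, drift, hc, ENNReal.toReal_ofReal (div_pos hZ0 hY0).le]
  field_simp

end Vale.Agent.P143
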