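import Vale.Agent.P143.Exact
import Vale.Agent.P143.Euler
import Vale.Agent.P143.Kirchhoff

/-!
On a finite connected graph the Euler scheme is uniformly close to an exact sample of
`t σ + Z`, where `σ` is the uniform spanning tree.
-/

open scoped ENNReal
open MeasureTheory Set Filter Topology

namespace Vale.Agent.P143

variable {V : Type*} [DecidableEq V]

noncomputable def ext (F : Finset (Sym2 V)) (x : F → ℝ) (e : Sym2 V) : ℝ :=
  if h : e ∈ F then x ⟨e, h⟩ else 0

lemma ext_coe (F : Finset (Sym2 V)) (x : F → ℝ) (f : F) : ext F x f = x f := dif_pos f.2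

def memT (F : Finset (Sym2 V)) (T : Finset (Sym2 V)) (f : F) : Prop := f.1 ∈ T

omit [DecidableEq V] in
lemma vf_congr {K : SimpleGraph V} {τ τ' x x' : Sym2 V → ℝ} (hτ : ∀ e ∈ K.edgeSet, τ e = τ' e)
    (hx : ∀ e ∈ K.edgeSet, x e = x' e) (e : Sym2 V) : vf K τ x e = vf K τ' x' e := by
  have := vf_lip (G := K) (τ := τ) (τ' := τ') (x := x) (x' := x') le_rfl le_rfl
    (fun e he => by simp [hx e he]) (fun e he => by simp [hτ e he]) e
  simpa [sub_eq_zero] using this

section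
variable {K : SimpleGraph V} {W : Set V} {F : Finset (Sym2 V)} (hF : (F : Set (Sym2 V)) = K.edgeSet)
include hF

lemma term_eq_wt (τ x : F → ℝ) {T : Finset (Sym2 V)} (hT : T ⊆ F) :
    term (memT F) τ x T = (∏ f, lap (x f)) * ∏ g ∈ T, wt K (ext F τ) (ext F x) g := by
  have h1 : ∏ g ∈ T, wt K (ext F τ) (ext F x) g =
      ∏ f : F, if f.1 ∈ T then wt K (ext F τ) (ext F x) f else 1 := by
    rw [Finset.prod_coe_sort F fun g => if g ∈ T then wt K (ext F τ) (ext F x) g else 1,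
      ← Finset.prod_filter, Finset.filter_mem_eq_inter, Finset.inter_eq_right.2 hT]
  rw [h1, ← Finset.prod_mul_distrib, term]
  refine Finset.prod_congr rfl fun f _ => ?_
  by_cases hf : f.1 ∈ T
  · rw [ind, if_pos (show memT F T f from hf), if_pos hf, mul_one,
      wt_of_mem _ _ (hF ▸ f.2 : f.1 ∈ K.edgeSet), ext_coe, ext_coe, lap, lap,
      div_mul_eq_mul_div, ← Real.exp_add]
    congr 2; ring
  · rw [ind, if_neg (show ¬ memT F T f from hf), if_neg hf, mul_zero, sub_zero, mul_one]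

lemma post_eq (hW : ∀ x y, s(x, y) ∈ F → x ∈ W) (hne : (trees W F).Nonempty) (τ x : F → ℝ)
    (e : F) : post (trees W F) (memT F) τ x e = vf K (ext F τ) (ext F x) e := by
  have hmem : ∀ f, f ∈ F ↔ f ∈ K.edgeSet := fun f => by rw [← hF]; simp
  rw [vf, kirchhoff (W := W) (F := F) (fun x y h => ⟨hW x y h, K.ne_of_adj ((hmem _).1 h)⟩) hne
    (fun f hf => by rw [wt_of_mem _ _ ((hmem f).1 hf)]; exact Real.exp_pos _)
    (fun f hf => wt_of_notMem _ _ fun h => hf ((hmem f).2 h)) e.2, post, dens]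
  have hP : 0 < ∏ f, lap (x f) := Finset.prod_pos fun _ _ => lap_pos _
  rw [Finset.sum_congr rfl fun T hT => term_eq_wt hF τ x (mem_trees.1 hT).1,
    ← Finset.mul_sum, ← mul_div_mul_left _ (∑ T ∈ trees W F, ∏ g ∈ T, wt K (ext F τ) (ext F x) g)
      hP.ne', Finset.mul_sum (Finset.filter _ _)]
  congr 1
  refine Finset.sum_congr ?_ fun T hT =>
    term_eq_wt hF τ x (mem_trees.1 (Finset.mem_filter.1 hT).1).1
  ext T
  simp only [Finset.mem_filter]
  rfl

lemma finite_scheme (hW : ∀ x y, s(x, y) ∈ F → x ∈ W) (hne : (trees W F).Nonempty) {h : ℝ}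
    (hh : 0 ≤ h) :
    ∃ Ψ : ℕ → (F → ℝ) → (F → ℝ), (∀ i, Measurable (Ψ i)) ∧
      (∀ (i : ℕ) (B : Set (F → ℝ)), MeasurableSet B →
        ((trees W F).card : ℝ≥0∞) * (Measure.pi fun _ : F => nu) (Ψ i ⁻¹' B) =
          ∑ T ∈ trees W F, (Measure.pi fun _ : F => nu)
            {z | (fun f => z f + i * h * ind (memT F) T f) ∈ B}) ∧
      ∀ (z : Sym2 V → ℝ) (i : ℕ) (f : F),
        |eul K h z i f - Ψ i (F.restrict z) f| ≤ 8 * h * (1 + 5 * h) ^ i := by
  have hmem : ∀ f, f ∈ F ↔ f ∈ K.edgeSet := fun f => by rw [← hF]; simp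
  have hL : PostLip (trees W F) (memT F) := by
    intro τ τ' x x' δ η hδ hη hx hτ e
    rw [post_eq hF hW hne, post_eq hF hW hne]
    refine vf_lip hδ hη (fun f hf => ?_) (fun f hf => ?_) e.1
    · have := hx ⟨f, (hmem f).2 hf⟩
      rwa [← ext_coe F x, ← ext_coe F x'] at this
    · have := hτ ⟨f, (hmem f).2 hf⟩
      rwa [← ext_coe F τ, ← ext_coe F τ'] at this
  obtain ⟨Ψ, h1, h2, h3, h4⟩ := exists_exact' (trees W F) (memT F) hne hL hh
  refine ⟨Ψ, h1, h3, fun z i f => ?_⟩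
  have := eul_stab (G := K) (K := 8) (z := z) (y := fun i => ext F (Ψ i (F.restrict z))) hh
    (by norm_num) (fun e he => ?_) (fun i e he => ?_) i f ((hmem _).1 f.2)
  · rwa [ext_coe] at this
  · simp [ext, (hmem e).2 he, h2]
  · have h5 := h4 i (F.restrict z) ⟨e, (hmem e).2 he⟩
    rw [post_eq hF hW hne, ← ext_coe F (Ψ (i + 1) _), ← ext_coe F (Ψ i _),
      vf_congr (τ' := fun _ => i * h) (x' := ext F (Ψ i (F.restrict z)))
        (fun f hf => by simp [ext, (hmem f).2 hf]) (fun _ _ => rfl)] at h5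
    exact h5

end

end Vale.Agent.P143
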