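import Vale.Agent.P143.Approx

/-!
The factor map and the identification of its law.
-/

open scoped ENNReal
open MeasureTheory Set Filter Topology

namespace Vale.Agent.P143

variable {V : Type*}

open Classical in
/-- The factor: decode the Euler schemes driven by the edge noise. -/
noncomputable def phi (ξ : unitInterval → Bool × ℕ → ℝ) (G : SimpleGraph V)
    (U : V → unitInterval) (e : Sym2 V) : Bool :=
  decide (∀ᶠ k : ℕ in atTop, (k : ℝ) / 2 < yk G (edgeNoise ξ G U) k e)

lemma measurable_phi [Countable V] {ξ : unitInterval → Bool × ℕ → ℝ} (hξ : Measurable ξ)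
    {X : Type*} [MeasurableSpace X] {G : X → SimpleGraph V}
    (hG : Measurable G) {U : X → V → unitInterval} (hU : Measurable U) (e : Sym2 V) :
    Measurable fun x => phi ξ (G x) (U x) e := by
  refine measurable_to_bool ?_
  have : (fun x => phi ξ (G x) (U x) e) ⁻¹' {true} =
      ⋃ K : ℕ, ⋂ k : ℕ, ⋂ _ : K ≤ k, {x | (k : ℝ) / 2 < yk (G x) (edgeNoise ξ (G x) (U x)) k e} := by
    ext x
    simp [phi, eventually_atTop]
  rw [this]
  refine MeasurableSet.iUnion fun K => MeasurableSet.iInter fun k => MeasurableSet.iInter fun _ =>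
    measurableSet_lt measurable_const ?_
  exact (measurable_pi_apply e).comp (measurable_eul hG (measurable_edgeNoise hξ hG hU) _ _)

lemma phi_map (ξ : unitInterval → Bool × ℕ → ℝ) {V' : Type*} {G : SimpleGraph V}
    {G' : SimpleGraph V'} (φ : G ≃g G') (U : V' → unitInterval) (e : Sym2 V) :
    phi ξ G' U (e.map φ) = phi ξ G (fun v => U (φ v)) e := by
  have : (fun f : Sym2 V => edgeNoise ξ G' U (f.map φ)) = edgeNoise ξ G (fun v => U (φ v)) :=
    funext fun f => noise_map φ _ _ f
  have h2 : ∀ k, yk G' (edgeNoise ξ G' U) k (e.map φ) =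
      yk G (edgeNoise ξ G fun v => U (φ v)) k e := fun k => by
    rw [yk, eul_map φ, this, yk]
  unfold phi
  rw [decide_eq_decide]
  simp only [h2]

lemma eventually_lt_measure {X : Type*} [MeasurableSpace X] {μ : Measure X} {B : Set X}
    {C : ℕ → Set X} (h : ∀ x ∈ B, ∀ᶠ n in atTop, x ∈ C n) {r : ℝ≥0∞} (hr : r < μ B) :
    ∀ᶠ n in atTop, r < μ (C n) := by
  have hm : Monotone fun N : ℕ => ⋂ n : ℕ, ⋂ _ : N ≤ n, C n := fun a b hab x hx => by
    simp only [mem_iInter] at hx ⊢
    exact fun n hn => hx n (hab.trans hn)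
  have h1 : μ B ≤ μ (⋃ N : ℕ, ⋂ n : ℕ, ⋂ _ : N ≤ n, C n) := measure_mono fun x hx => by
    simpa [eventually_atTop] using h x hx
  rw [hm.measure_iUnion] at h1
  obtain ⟨N, hN⟩ := lt_iSup_iff.1 (hr.trans_le h1)
  exact (eventually_ge_atTop N).mono fun n hn =>
    hN.trans_le (measure_mono fun x hx => mem_iInter₂.1 hx n hn)

lemma sign_stable {u : ℕ → ℝ} {k : ℕ} (h1 : ∀ j, |u (j + 1) - u j| ≤ 1)
    (h2 : ∀ j, 3 < |u (j + k)|) : (∀ᶠ j in atTop, 0 < u j) ↔ 0 < u k := by
  have h3 : ∀ j, (0 < u (j + k) ↔ 0 < u k) := by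
    intro j
    induction j with
    | zero => simp
    | succ j ih =>
      rw [← ih]
      have a1 := abs_le.1 (h1 (j + k))
      have a2 := h2 j
      rw [show j + 1 + k = j + k + 1 by ring]
      rcases lt_abs.1 a2 with h | h
      · constructor <;> intro _ <;> linarith [a1.1, a1.2]
      · constructor <;> intro _ <;> linarith [a1.1, a1.2]
  have h4 : ∀ᶠ j in atTop, (0 < u j ↔ 0 < u k) := (eventually_ge_atTop k).mono fun j hj => by
    have := h3 (j - k)
    rwa [Nat.sub_add_cancel hj] at this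
  constructor
  · intro h
    obtain ⟨j, h5, h6⟩ := (h.and h4).exists
    exact h6.1 h5
  · intro h
    exact h4.mono fun j hj => hj.2 h

section
variable [Countable V] {ξ : unitInterval → Bool × ℕ → ℝ} (hξ : Measurable ξ)
  (hl : volume.map ξ = Measure.infinitePi fun _ => nu) {G : SimpleGraph V}
  (hG : ∀ v, (G.neighborSet v).Finite) {H : ℕ → G.Subgraph} (hH : IsExhaustion H)
include hξ hl hG hH

omit [Countable V] hξ hl in
lemma tendsto_yk (z : Sym2 V → ℝ) (k : ℕ) (e : Sym2 V) :
    Tendsto (fun n => yk (H n).spanningCoe z k e) atTop (𝓝 (yk G z k e)) :=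
  tendsto_eul hG (fun n => (H n).spanningCoe_le) (fun e he => by
    simpa only [SimpleGraph.Subgraph.edgeSet_spanningCoe] using hH.eventually_mem he)
    (stepSize_pos k).le z _ e

lemma bad_le (k : ℕ) {e : Sym2 V} (he : e ∈ G.edgeSet) :
    iidUniform V {U | |yk G (edgeNoise ξ G U) k e - k / 2| ≤ 3} ≤ eps k := by
  choose W h1 h2 h3 using fun n => approx hξ hl hG (hH.2.1 n) (hH.2.2.1 n) k
  by_contra hcon
  have h4 := eventually_lt_measure (C := fun n => {U | |W n U e - k / 2| < 5}) (fun U hU => ?_)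
    (not_le.1 hcon)
  · obtain ⟨n, h5, h6⟩ := (h4.and (hH.eventually_mem he)).exists
    exact absurd (h2 n e h6) (not_le.2 h5)
  · have h5 := Metric.tendsto_nhds.1 (tendsto_yk hG hH (edgeNoise ξ G U) k e) 1 one_pos
    filter_upwards [h5, hH.eventually_mem he] with n h6 h7
    have h8 := abs_le.1 (h1 n U e h7)
    simp only [mem_ofPred_eq] at hU ⊢
    rw [Real.dist_eq, abs_lt] at h6
    rw [abs_le] at hU
    rw [abs_lt]
    constructor <;> linarith [h6.1, h6.2, h8.1, h8.2, hU.1, hU.2]

lemma cylinder_le (S : Finset G.edgeSet) (A : Set (S → Bool)) {r : ℝ≥0∞}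
    (hr : r < iidUniform V {U | (fun e : S => phi ξ G U e.1.1) ∈ A}) :
    ∀ᶠ n in atTop, r < ust (H n) (S.restrict ⁻¹' A) := by
  have ht : Tendsto (fun k => (S.card : ℝ≥0∞) * ∑' j, eps (j + k)) atTop (𝓝 0) := by
    have := ENNReal.Tendsto.const_mul (a := (S.card : ℝ≥0∞))
      (ENNReal.tendsto_sum_nat_add eps tsum_eps_ne_top) (Or.inr (by simp))
    simpa using this
  have ht2 := (tendsto_const_nhds (x := r)).add ht |>.add ht
  rw [add_zero, add_zero] at ht2
  obtain ⟨k, hk⟩ := ((tendsto_order.1 ht2).2 _ hr).exists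
  set δ := (S.card : ℝ≥0∞) * ∑' j, eps (j + k) with hδ
  choose W h1 h2 h3 using fun n => approx hξ hl hG (hH.2.1 n) (hH.2.2.1 n) k
  let Bad : Set (V → unitInterval) := ⋃ e ∈ S, ⋃ j : ℕ,
    {U | |yk G (edgeNoise ξ G U) (j + k) e.1 - (j + k : ℕ) / 2| ≤ 3}
  have hBad : iidUniform V Bad ≤ δ := by
    refine (measure_biUnion_finset_le _ _).trans ?_
    rw [hδ, ← nsmul_eq_mul, ← Finset.sum_const]
    exact Finset.sum_le_sum fun e _ => (measure_iUnion_le _).trans
      (ENNReal.tsum_le_tsum fun j => bad_le hξ hl hG hH (j + k) e.2)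
  have h4 : r + δ < iidUniform V ({U | (fun e : S => phi ξ G U e.1.1) ∈ A} \ Bad) := by
    by_contra hcon
    refine absurd hk (not_lt.2 ?_)
    calc _ ≤ iidUniform V (({U | (fun e : S => phi ξ G U e.1.1) ∈ A} \ Bad) ∪ Bad) :=
          measure_mono (subset_sdiff_union _ _)
      _ ≤ _ := (measure_union_le _ _).trans (add_le_add (not_lt.1 hcon) hBad)
  have hev : ∀ᶠ n in atTop, ∀ e ∈ S, e.1 ∈ (H n).edgeSet :=
    (eventually_all_finset S).2 fun e _ => hH.eventually_mem e.2
  have h5 := eventually_lt_measure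
    (C := fun n => {U | (fun e : S => decide ((k : ℝ) / 2 < W n U e.1.1)) ∈ A})
    (fun U hU => ?_) h4
  · filter_upwards [h5, hev] with n h6 h7
    have h8 := h6.trans_le (h3 n S A h7)
    by_contra hcon
    refine absurd h8 (not_lt.2 (add_le_add (not_lt.1 hcon) ?_))
    rw [hδ]
    have := ENNReal.le_tsum (f := fun j => eps (j + k)) 0
    rw [zero_add] at this
    gcongr
  · obtain ⟨hA, hB⟩ := hU
    simp only [Bad, mem_iUnion, mem_ofPred_eq, not_exists, not_le] at hA hB
    have h6 : ∀ᶠ n in atTop, ∀ e ∈ S, dist (yk (H n).spanningCoe (edgeNoise ξ G U) k e.1)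
        (yk G (edgeNoise ξ G U) k e.1) < 1 := (eventually_all_finset S).2 fun e _ =>
      Metric.tendsto_nhds.1 (tendsto_yk hG hH (edgeNoise ξ G U) k e.1) 1 one_pos
    filter_upwards [h6, hev] with n h7 h8
    convert hA using 1
    funext e
    have h9 := sign_stable (u := fun j => yk G (edgeNoise ξ G U) j e.1.1 - j / 2) (k := k)
      (fun j => yk_succ G _ j e.1.2) (hB e.1 e.2)
    simp only [sub_pos] at h9
    simp only [phi]
    rw [decide_eq_decide, h9]
    have a1 := h7 e.1 e.2
    rw [Real.dist_eq, abs_lt] at a1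
    have a2 := abs_le.1 (h1 n U e.1.1 (h8 e.1 e.2))
    have a3 := hB e.1 e.2 0
    rw [zero_add] at a3
    rcases lt_abs.1 a3 with h | h
    · constructor <;> intro _ <;> linarith [a1.1, a1.2, a2.1, a2.2]
    · constructor <;> intro _ <;> linarith [a1.1, a1.2, a2.1, a2.2]

lemma open_le {O : Set (G.edgeSet → Bool)} (hO : IsOpen O) :
    iidUniform V {U | (fun e : G.edgeSet => phi ξ G U e.1) ∈ O} ≤
      liminf (fun n => ust (H n) O) atTop := by
  classical
  obtain ⟨enc, henc⟩ := exists_injective_nat G.edgeSet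
  let S : ℕ → Finset G.edgeSet := fun m => (Finset.range m).preimage enc henc.injOn
  let A : ∀ m, Set (S m → Bool) := fun m => {η | ∀ ω, (S m).restrict ω = η → ω ∈ O}
  refine le_of_forall_lt fun r hr => ?_
  obtain ⟨r', h1, h2⟩ := exists_between hr
  have h3 := eventually_lt_measure
    (C := fun m => {U | (fun e : S m => phi ξ G U e.1.1) ∈ A m}) (fun U hU => ?_) h2
  · obtain ⟨m, hm⟩ := h3.exists
    refine h1.trans_le (le_liminf_of_le (h := (cylinder_le hξ hl hG hH _ _ hm).mono
      fun n hn => hn.le.trans (measure_mono fun ω hω => hω ω rfl)))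
  · obtain ⟨I, u, hu, hsub⟩ := isOpen_pi_iff.1 hO _ hU
    have h4 : ∀ᶠ m in atTop, ∀ e ∈ I, enc e < m :=
      (eventually_all_finset I).2 fun e _ => eventually_gt_atTop _
    filter_upwards [h4] with m hm ω hω
    refine hsub fun e he => ?_
    have h5 : e ∈ S m := Finset.mem_preimage.2 (Finset.mem_range.2 (hm e he))
    have h6 : ω e = phi ξ G U e.1 := congrFun hω ⟨e, h5⟩
    rw [h6]
    exact (hu e he).2

end

theorem isFUSF_phi {ξ : unitInterval → Bool × ℕ → ℝ} (hξ : Measurable ξ)
    (hl : volume.map ξ = Measure.infinitePi fun _ => nu) {G : SimpleGraph V}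
    (hG : ∀ v, (G.neighborSet v).Finite) (hc : G.Connected) :
    IsFUSF G ((iidUniform V).map fun U (e : G.edgeSet) => phi ξ G U e.1) := by
  have := countable_of_connected hG hc
  have hm : Measurable fun (U : V → unitInterval) (e : G.edgeSet) => phi ξ G U e.1 :=
    measurable_pi_lambda _ fun e => measurable_phi hξ measurable_const measurable_id e.1
  have hP := Measure.isProbabilityMeasure_map (μ := iidUniform V) hm.aemeasurable
  refine ⟨hP, exists_exhaustion hG hc, fun H hH => ?_⟩
  have h := tendsto_of_forall_isOpen_le_liminf_nat' (μ := ⟨_, hP⟩)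
    (μs := fun n => ⟨ust (H n), isProbabilityMeasure_ust (hH.2.1 n) (hH.2.2.1 n)⟩)
    (fun O hO => by
      simp only [ProbabilityMeasure.coe_mk]
      rw [Measure.map_apply hm hO.measurableSet]
      exact open_le hξ hl hG hH hO)
  exact ProbabilityMeasure.tendsto_iff_forall_integral_tendsto.1 h

lemma exists_xi : ∃ ξ : unitInterval → Bool × ℕ → ℝ, Measurable ξ ∧
    volume.map ξ = Measure.infinitePi fun _ => nu :=
  Measure.exists_measurable_map_eq _

end Vale.Agent.P143
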