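import Mathlib

/-!
The Laplace noise and the monotone transport between two mixtures of shifted Laplace laws.
-/

open scoped ENNReal
open MeasureTheory Set Filter Topology

namespace Vale.Agent.P143

noncomputable def lap (x : ℝ) : ℝ := Real.exp (-|x|) / 2

lemma lap_pos (x : ℝ) : 0 < lap x := by unfold lap; positivity

lemma continuous_lap : Continuous lap := by unfold lap; fun_prop

lemma measurable_lap : Measurable lap := continuous_lap.measurable

lemma lap_le {x y δ : ℝ} (h : |x - y| ≤ δ) : lap x ≤ Real.exp δ * lap y := by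
  unfold lap
  rw [← mul_div_assoc, ← Real.exp_add]
  gcongr
  have := abs_sub_abs_le_abs_sub y x
  rw [abs_sub_comm] at this
  linarith

lemma integrable_exp_abs {b : ℝ} (hb : 0 < b) : Integrable fun x : ℝ => Real.exp (-b * |x|) := by
  have h1 : IntegrableOn (fun x : ℝ => Real.exp (-b * |x|)) (Ioi 0) :=
    (exp_neg_integrableOn_Ioi 0 hb).congr_fun
      (fun x hx => by simp only [abs_of_pos (mem_Ioi.1 hx)]) measurableSet_Ioi
  have h2 : IntegrableOn (fun x : ℝ => Real.exp (-b * |x|)) (Iic 0) := by
    rw [← Measure.map_neg_eq_self (volume : Measure ℝ)]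
    let m : MeasurableEmbedding fun x : ℝ => -x := (Homeomorph.neg ℝ).measurableEmbedding
    rw [m.integrableOn_map_iff]
    simp_rw [Function.comp_def, abs_neg, neg_preimage, neg_Iic, neg_zero]
    exact Iff.mpr integrableOn_Ici_iff_integrableOn_Ioi h1
  have := h2.union h1
  rwa [Iic_union_Ioi, integrableOn_univ] at this

lemma integrable_lap : Integrable lap := by
  have := (integrable_exp_abs one_pos).div_const 2
  simp only [neg_mul, one_mul] at this
  exact this

lemma integral_lap : ∫ x, lap x = 1 := by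
  unfold lap
  rw [integral_div, integral_comp_abs (f := fun x => Real.exp (-x)), integral_exp_neg_Ioi_zero]
  norm_num

noncomputable def nu : Measure ℝ := volume.withDensity fun x => ENNReal.ofReal (lap x)

instance : IsProbabilityMeasure nu := ⟨by
  rw [nu, withDensity_apply _ MeasurableSet.univ, Measure.restrict_univ,
    ← ofReal_integral_eq_lintegral_ofReal integrable_lap (ae_of_all _ fun x => (lap_pos x).le),
    integral_lap, ENNReal.ofReal_one]⟩

instance : NullSingletonClass nu := by unfold nu; infer_instance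

lemma nu_map_add (s : ℝ) :
    nu.map (fun x => x + s) = volume.withDensity fun x => ENNReal.ofReal (lap (x - s)) := by
  ext A hA
  rw [Measure.map_apply (by fun_prop) hA, nu, withDensity_apply _ (hA.preimage (by fun_prop)),
    withDensity_apply _ hA, ← lintegral_indicator hA,
    ← lintegral_indicator (hA.preimage (by fun_prop)),
    ← lintegral_add_right_eq_self (μ := volume)
      (A.indicator fun x => ENNReal.ofReal (lap (x - s))) s]
  refine lintegral_congr fun x => ?_
  by_cases hx : x + s ∈ A
  · simp [indicator, hx]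
  · simp [indicator, hx]

noncomputable def eps (k : ℕ) : ℝ≥0∞ := nu {z | (k : ℝ) / 2 - 5 ≤ |z|}

lemma tsum_eps_ne_top : ∑' k, eps k ≠ ⊤ := by
  have hI := integrable_exp_abs (b := 1 / 2) (by norm_num)
  have h1 : ∀ k : ℕ, eps k ≤ ENNReal.ofReal (Real.exp (-(1 / 4)) ^ k) *
      ∫⁻ x : ℝ, ENNReal.ofReal (Real.exp (5 / 2) * Real.exp (-(1 / 2) * |x|)) := by
    intro k
    have hm : MeasurableSet {z : ℝ | (k : ℝ) / 2 - 5 ≤ |z|} :=
      measurableSet_le measurable_const measurable_abs
    rw [eps, nu, withDensity_apply _ hm, ← lintegral_const_mul' _ _ ENNReal.ofReal_ne_top]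
    refine (setLIntegral_mono' hm fun x hx => ?_).trans (setLIntegral_le_lintegral _ _)
    rw [← ENNReal.ofReal_mul (by positivity), ← Real.exp_nat_mul, ← Real.exp_add,
      ← Real.exp_add]
    refine ENNReal.ofReal_le_ofReal ?_
    have h2 : Real.exp (-|x|) ≤ Real.exp (k * -(1 / 4) + (5 / 2 + -(1 / 2) * |x|)) := by
      rw [Real.exp_le_exp]
      simp only [mem_ofPred_eq] at hx
      linarith
    have := Real.exp_pos (-|x|)
    unfold lap; linarith
  refine ne_top_of_le_ne_top ?_ (ENNReal.tsum_le_tsum h1)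
  rw [ENNReal.tsum_mul_right]
  refine ENNReal.mul_ne_top ?_ (hI.const_mul _).lintegral_lt_top.ne
  rw [← ENNReal.ofReal_tsum_of_nonneg (fun _ => by positivity)
    (summable_geometric_of_lt_one (Real.exp_pos _).le (Real.exp_lt_one_iff.2 (by norm_num)))]
  exact ENNReal.ofReal_ne_top

noncomputable def cF (x : ℝ) : ℝ := ∫ y in Iic x, lap y

lemma cF_sub (x y : ℝ) : cF y - cF x = ∫ z in x..y, lap z :=
  intervalIntegral.integral_Iic_sub_Iic integrable_lap.integrableOn integrable_lap.integrableOn

lemma cF_upper (x : ℝ) {y δ : ℝ} (a : ℝ) (hxy : x ≤ y) (h : ∀ z ∈ Icc x y, |z - a| ≤ δ) :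
    cF y - cF x ≤ (y - x) * (Real.exp δ * lap a) := by
  rw [cF_sub]
  have := intervalIntegral.integral_mono_on (μ := volume) hxy
    integrable_lap.intervalIntegrable (intervalIntegrable_const (c := Real.exp δ * lap a))
    (fun z hz => lap_le (h z hz))
  rwa [intervalIntegral.integral_const, smul_eq_mul] at this

lemma cF_lower (x : ℝ) {y δ : ℝ} (a : ℝ) (hxy : x ≤ y) (h : ∀ z ∈ Icc x y, |z - a| ≤ δ) :
    (y - x) * (Real.exp (-δ) * lap a) ≤ cF y - cF x := by
  rw [cF_sub]
  have := intervalIntegral.integral_mono_on (μ := volume) hxy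
    (intervalIntegrable_const (c := Real.exp (-δ) * lap a)) integrable_lap.intervalIntegrable
    (fun z hz => by
      have h1 := lap_le (x := a) (y := z) (δ := δ) (by rw [abs_sub_comm]; exact h z hz)
      calc Real.exp (-δ) * lap a ≤ Real.exp (-δ) * (Real.exp δ * lap z) :=
            mul_le_mul_of_nonneg_left h1 (Real.exp_pos _).le
        _ = lap z := by rw [← mul_assoc, ← Real.exp_add]; simp)
  rwa [intervalIntegral.integral_const, smul_eq_mul] at this

lemma cF_strictMono : StrictMono cF := by
  intro x y hxy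
  have := cF_lower x x hxy.le (δ := y - x) fun z hz => by
    rw [abs_of_nonneg (by linarith [hz.1])]; linarith [hz.2]
  have h2 : 0 < (y - x) * (Real.exp (-(y - x)) * lap x) :=
    mul_pos (by linarith) (mul_pos (Real.exp_pos _) (lap_pos x))
  linarith

lemma continuous_cF : Continuous cF := by
  have : cF = fun y => cF 0 + ∫ z in (0 : ℝ)..y, lap z := by
    funext y; rw [← cF_sub]; ring
  rw [this]
  exact continuous_const.add
    (intervalIntegral.continuous_primitive (fun _ _ => integrable_lap.intervalIntegrable) 0)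

noncomputable def mixG (A B t x : ℝ) : ℝ := A * cF x + B * cF (x - t)

noncomputable def mixM (A B t : ℝ) : Measure ℝ :=
  volume.withDensity fun y => ENNReal.ofReal (A * lap y + B * lap (y - t))

lemma continuous_mixG (A B t : ℝ) : Continuous (mixG A B t) := by
  unfold mixG
  have := continuous_cF
  fun_prop

lemma mixG_strictMono {A B : ℝ} (hA : 0 ≤ A) (hB : 0 ≤ B) (hAB : 0 < A + B) (t : ℝ) :
    StrictMono (mixG A B t) := by
  intro x y hxy
  have h1 := cF_strictMono hxy
  have h2 := cF_strictMono (show x - t < y - t by linarith)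
  unfold mixG
  rcases hA.eq_or_lt with h | h
  · have : 0 < B := by linarith
    rw [← h]; nlinarith
  · nlinarith

lemma integrable_mix (A B t : ℝ) : Integrable fun y => A * lap y + B * lap (y - t) :=
  (integrable_lap.const_mul A).add ((integrable_lap.comp_sub_right t).const_mul B)

lemma mixM_Iic {A B : ℝ} (hA : 0 ≤ A) (hB : 0 ≤ B) (t x : ℝ) :
    mixM A B t (Iic x) = ENNReal.ofReal (mixG A B t x) := by
  rw [mixM, withDensity_apply _ measurableSet_Iic,
    ← ofReal_integral_eq_lintegral_ofReal (integrable_mix A B t).integrableOn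
      (ae_of_all _ fun y => add_nonneg (mul_nonneg hA (lap_pos _).le)
        (mul_nonneg hB (lap_pos _).le)),
    integral_add (integrable_lap.const_mul A).integrableOn
      ((integrable_lap.comp_sub_right t).const_mul B).integrableOn,
    integral_const_mul, integral_const_mul]
  congr 1
  unfold mixG cF
  congr 2
  rw [← integral_indicator measurableSet_Iic, ← integral_indicator measurableSet_Iic,
    ← integral_sub_right_eq_self (μ := volume) ((Iic (x - t)).indicator lap) t]
  refine integral_congr_ae (ae_of_all _ fun y => ?_)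
  by_cases h : y ≤ x
  · simp [indicator, h]
  · simp [indicator, h]

instance (A B t : ℝ) : IsFiniteMeasure (mixM A B t) :=
  isFiniteMeasure_withDensity_ofReal (integrable_mix A B t).hasFiniteIntegral

noncomputable def tr (A B t h x : ℝ) : ℝ := Function.invFun (mixG A B (t + h)) (mixG A B t x)

section
variable {A B : ℝ} (hA : 0 ≤ A) (hB : 0 ≤ B) (hAB : 0 < A + B) (t : ℝ) {h : ℝ} (hh : 0 ≤ h)
include hA hB hAB hh

lemma tr_spec (x : ℝ) :
    tr A B t h x ∈ Icc x (x + h) ∧ mixG A B (t + h) (tr A B t h x) = mixG A B t x := by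
  have hm := cF_strictMono.monotone
  obtain ⟨y, hy, hy2⟩ : mixG A B t x ∈ mixG A B (t + h) '' Icc x (x + h) := by
    refine intermediate_value_Icc (by linarith) (continuous_mixG A B _).continuousOn ⟨?_, ?_⟩
    · have := hm (show x - (t + h) ≤ x - t by linarith)
      unfold mixG; nlinarith
    · have := hm (show x ≤ x + h by linarith)
      unfold mixG
      rw [show x + h - (t + h) = x - t by ring]; nlinarith
  have h1 : mixG A B (t + h) (tr A B t h x) = mixG A B t x := Function.invFun_eq ⟨y, hy2⟩
  refine ⟨?_, h1⟩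
  rwa [(mixG_strictMono hA hB hAB _).injective (h1.trans hy2.symm)]

lemma tr_le_iff (x y : ℝ) : tr A B t h x ≤ y ↔ mixG A B t x ≤ mixG A B (t + h) y := by
  rw [← (tr_spec hA hB hAB t hh x).2, (mixG_strictMono hA hB hAB _).le_iff_le]

lemma measurable_tr' : Measurable (tr A B t h) := by
  refine measurable_of_Iic fun y => ?_
  have : tr A B t h ⁻¹' Iic y = {x | mixG A B t x ≤ mixG A B (t + h) y} :=
    Set.ext fun x => tr_le_iff hA hB hAB t hh x y
  rw [this]
  exact measurableSet_le (continuous_mixG A B t).measurable measurable_const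

lemma map_tr : (mixM A B t).map (tr A B t h) = mixM A B (t + h) := by
  refine Measure.ext_of_Iic _ _ fun y => ?_
  have hm := cF_strictMono.monotone
  obtain ⟨x, -, hx⟩ : mixG A B (t + h) y ∈ mixG A B t '' Icc (y - h) y := by
    refine intermediate_value_Icc (by linarith) (continuous_mixG A B _).continuousOn ⟨?_, ?_⟩
    · have := hm (show y - h ≤ y by linarith)
      unfold mixG
      rw [show y - h - t = y - (t + h) by ring]; nlinarith
    · have := hm (show y - (t + h) ≤ y - t by linarith)
      unfold mixG; nlinarith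
  have : tr A B t h ⁻¹' Iic y = Iic x := by
    ext z
    rw [mem_preimage, mem_Iic, tr_le_iff hA hB hAB t hh, ← hx,
      (mixG_strictMono hA hB hAB _).le_iff_le, mem_Iic]
  rw [Measure.map_apply (measurable_tr' hA hB hAB t hh) measurableSet_Iic, this,
    mixM_Iic hA hB, mixM_Iic hA hB, hx]

lemma lintegral_tr {ψ : ℝ → ℝ≥0∞} (hψ : Measurable ψ) :
    ∫⁻ y, ENNReal.ofReal (A * lap y + B * lap (y - t)) * ψ (tr A B t h y) =
      ∫⁻ y, ENNReal.ofReal (A * lap y + B * lap (y - (t + h))) * ψ y := by
  have hm : ∀ s : ℝ, Measurable fun y => ENNReal.ofReal (A * lap y + B * lap (y - s)) :=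
    fun s => by
      have := measurable_lap
      fun_prop
  have h1 := lintegral_map (μ := mixM A B t) hψ (measurable_tr' hA hB hAB t hh)
  rw [map_tr hA hB hAB t hh, mixM, mixM, lintegral_withDensity_eq_lintegral_mul _ (hm _) hψ,
    lintegral_withDensity_eq_lintegral_mul _ (hm _) (g := fun a => ψ (tr A B t h a))
      (hψ.comp (measurable_tr' hA hB hAB t hh))] at h1
  exact h1.symm

lemma tr_estimate (x : ℝ) :
    |tr A B t h x - x - h * (B * lap (x - t) / (A * lap x + B * lap (x - t)))| ≤ 2 * h ^ 2 := by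
  obtain ⟨⟨h1, h2⟩, h3⟩ := tr_spec hA hB hAB t hh x
  set y := tr A B t h x
  have hz1 : ∀ z ∈ Icc x y, |z - x| ≤ h := fun z hz => by
    rw [abs_of_nonneg (by linarith [hz.1])]; linarith [hz.2]
  have hz2 : ∀ z ∈ Icc (y - (t + h)) (x - t), |z - (x - t)| ≤ h := fun z hz => by
    rw [abs_of_nonpos (by linarith [hz.2])]; linarith [hz.1]
  have u1 := cF_upper x x h1 hz1
  have l1 := cF_lower x x h1 hz1
  have u2 := cF_upper (y - (t + h)) (x - t) (by linarith) hz2
  have l2 := cF_lower (y - (t + h)) (x - t) (by linarith) hz2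
  have heq : A * (cF y - cF x) = B * (cF (x - t) - cF (y - (t + h))) := by
    unfold mixG at h3; linarith
  set a := A * lap x with ha
  set b := B * lap (x - t) with hb
  have ha0 : 0 ≤ a := mul_nonneg hA (lap_pos _).le
  have hb0 : 0 ≤ b := mul_nonneg hB (lap_pos _).le
  have hab : 0 < a + b := by
    rcases hA.eq_or_lt with h0 | h0
    · have : 0 < b := mul_pos (by linarith) (lap_pos _)
      linarith
    · have : 0 < a := mul_pos h0 (lap_pos _)
      linarith
  set δ := y - x with hδ
  have hδ0 : 0 ≤ δ := by linarith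
  have hδ1 : 0 ≤ h - δ := by linarith
  rw [show x - t - (y - (t + h)) = h - δ by rw [hδ]; ring] at u2 l2
  have e1 : a * δ * Real.exp (-h) ≤ b * (h - δ) * Real.exp h := by
    have s1 := mul_le_mul_of_nonneg_left l1 hA
    have s2 := mul_le_mul_of_nonneg_left u2 hB
    rw [ha, hb]; nlinarith
  have e2 : b * (h - δ) * Real.exp (-h) ≤ a * δ * Real.exp h := by
    have s1 := mul_le_mul_of_nonneg_left u1 hA
    have s2 := mul_le_mul_of_nonneg_left l2 hB
    rw [ha, hb]; nlinarith
  have key : ∀ p q : ℝ, 0 ≤ p → p * Real.exp (-h) ≤ q * Real.exp h → p - q ≤ 2 * h * p := by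
    intro p q hp hpq
    have s1 := mul_le_mul_of_nonneg_right hpq (Real.exp_pos (-h)).le
    rw [mul_assoc, mul_assoc, ← Real.exp_add, ← Real.exp_add, add_neg_cancel, Real.exp_zero,
      mul_one] at s1
    have s2 := Real.add_one_le_exp (-h + -h)
    nlinarith
  have k1 := key _ _ (mul_nonneg ha0 hδ0) e1
  have k2 := key _ _ (mul_nonneg hb0 hδ1) e2
  have hform : δ - h * (b / (a + b)) = (a * δ - b * (h - δ)) / (a + b) := by
    field_simp; ring
  rw [hform, abs_div, abs_of_pos hab, div_le_iff₀ hab, abs_le]
  constructor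
  · have : b * (h - δ) ≤ (a + b) * h := by nlinarith
    nlinarith
  · have : a * δ ≤ (a + b) * h := by nlinarith
    nlinarith

end

lemma measurable_tr {X : Type*} [MeasurableSpace X] {A B x : X → ℝ} (hA : ∀ ω, 0 ≤ A ω)
    (hB : ∀ ω, 0 ≤ B ω) (hAB : ∀ ω, 0 < A ω + B ω) (mA : Measurable A) (mB : Measurable B)
    (mx : Measurable x) (t : ℝ) {h : ℝ} (hh : 0 ≤ h) :
    Measurable fun ω => tr (A ω) (B ω) t h (x ω) := by
  refine measurable_of_Iic fun y => ?_
  have : (fun ω => tr (A ω) (B ω) t h (x ω)) ⁻¹' Iic y =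
      {ω | mixG (A ω) (B ω) t (x ω) ≤ mixG (A ω) (B ω) (t + h) y} :=
    Set.ext fun ω => tr_le_iff (hA ω) (hB ω) (hAB ω) t hh _ y
  rw [this]
  have := continuous_cF.measurable
  refine measurableSet_le ?_ ?_ <;> unfold mixG <;> fun_prop

lemma pi_withDensity {ι : Type*} [Fintype ι] {g : ι → ℝ → ℝ} (hg : ∀ i, Integrable (g i))
    (hg0 : ∀ i x, 0 ≤ g i x) :
    Measure.pi (fun i => volume.withDensity fun x => ENNReal.ofReal (g i x)) =
      (Measure.pi fun _ : ι => (volume : Measure ℝ)).withDensity
        fun x => ENNReal.ofReal (∏ i, g i (x i)) := by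
  have : ∀ i, IsFiniteMeasure (volume.withDensity fun x => ENNReal.ofReal (g i x)) := fun i =>
    isFiniteMeasure_withDensity_ofReal (hg i).hasFiniteIntegral
  refine Measure.pi_eq fun s hs => ?_
  have hI : ∀ i, Integrable ((s i).indicator (g i)) := fun i => (hg i).indicator (hs i)
  have h0 : ∀ i x, 0 ≤ (s i).indicator (g i) x := fun i x => indicator_nonneg (fun y _ => hg0 i y) x
  rw [withDensity_apply _ (MeasurableSet.univ_pi hs), ← lintegral_indicator (MeasurableSet.univ_pi hs)]
  have h1 : (univ.pi s).indicator (fun x : ι → ℝ => ENNReal.ofReal (∏ i, g i (x i))) =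
      fun x => ENNReal.ofReal (∏ i, (s i).indicator (g i) (x i)) := by
    funext x
    by_cases hx : x ∈ univ.pi s
    · rw [indicator_of_mem hx]
      congr 1
      exact Finset.prod_congr rfl fun i _ => (indicator_of_mem (hx i trivial) _).symm
    · rw [indicator_of_notMem hx]
      simp only [Set.mem_pi, mem_univ, true_imp_iff, not_forall] at hx
      obtain ⟨i, hi⟩ := hx
      rw [Finset.prod_eq_zero (Finset.mem_univ i) (indicator_of_notMem hi _), ENNReal.ofReal_zero]
  rw [h1, ← ofReal_integral_eq_lintegral_ofReal (Integrable.fintype_prod hI)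
    (ae_of_all _ fun x => Finset.prod_nonneg fun i _ => h0 i _),
    integral_fintype_prod_eq_prod (fun i => (s i).indicator (g i)),
    ENNReal.ofReal_prod_of_nonneg fun i _ => integral_nonneg (h0 i)]
  refine Finset.prod_congr rfl fun i _ => ?_
  rw [withDensity_apply _ (hs i), integral_indicator (hs i),
    ofReal_integral_eq_lintegral_ofReal (hg i).integrableOn (ae_of_all _ (hg0 i))]

end Vale.Agent.P143
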